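import Crest.Agent.Helper52.PP.Gnp

/-!
# Counting glue for the spread condition (helper52; conditional package for row 55)

For a set `T` of edge slots of `K_n` with vertex set `vset T`, the embeddings `f : W ↪ Fin n`
whose copy of `H` contains `T` are counted through the injective homomorphisms
`g : vset T ↪ W` of `T` into `H` (`injCount H T` of them):

  `#{f | T ⊆ slots H f} ≤ injCount H T * (n - v_T).descFactorial (|W| - v_T)`,

so that the spread condition of `gnp_of_spread` / `s0076_of_spread` follows from
`injCount H T ≤ (C p)^|T| * n.descFactorial v_T`  (`inj(J,H) ≤ (C p)^{e(J)} (n)_{v(J)}`).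
Nothing here proves such a bound.
-/

set_option autoImplicit false
set_option linter.unusedSectionVars false

namespace Crest.Agent.Helper52.PP

open Finset Crest.CombinatoricsR.RandomGraph

variable {n : ℕ} {W : Type} [Fintype W] [DecidableEq W]

lemma mem_slots (H : SimpleGraph W) [DecidableRel H.Adj] (f : W ↪ Fin n) (s : EdgeSlot n) :
    s ∈ slots H f ↔ ∃ a b, H.Adj a b ∧ s.1 = s(f a, f b) := by
  unfold slots
  rw [Finset.mem_subtype, Finset.mem_image]
  constructor
  · rintro ⟨e, he, hes⟩
    induction e using Sym2.ind with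
    | _ a b =>
      rw [SimpleGraph.mem_edgeFinset] at he
      exact ⟨a, b, he, hes.symm⟩
  · rintro ⟨a, b, hab, hs⟩
    exact ⟨s(a, b), by rw [SimpleGraph.mem_edgeFinset]; exact hab, hs.symm⟩

open Classical in
/-- The vertices of `K_n` covered by the slots of `T`. -/
noncomputable def vset (T : Finset (EdgeSlot n)) : Finset (Fin n) :=
  Finset.univ.filter (fun v => ∃ s ∈ T, v ∈ s.1)

lemma mem_vset (T : Finset (EdgeSlot n)) (v : Fin n) : v ∈ vset T ↔ ∃ s ∈ T, v ∈ s.1 := by
  unfold vset
  simp

/-- `g`, defined on the vertex set of `T`, sends every slot of `T` onto an edge of `H`. -/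
def IsHom (H : SimpleGraph W) (T : Finset (EdgeSlot n)) (g : {v // v ∈ vset T} → W) : Prop :=
  ∀ a b : {v // v ∈ vset T}, (∃ s ∈ T, s.1 = s(a.1, b.1)) → H.Adj (g a) (g b)

/-- The number of injective homomorphisms of (the graph of) `T` into `H`. -/
noncomputable def injCount (H : SimpleGraph W) (T : Finset (EdgeSlot n)) : ℕ :=
  Nat.card {g : {v // v ∈ vset T} ↪ W // IsHom H T g}

/-- Every embedding whose copy of `H` contains `T` restricts (via its inverse on `vset T`) to
an injective homomorphism of `T` into `H`. -/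
lemma exists_hom_of_subset_slots (H : SimpleGraph W) [DecidableRel H.Adj]
    (T : Finset (EdgeSlot n)) (f : W ↪ Fin n) (hf : T ⊆ slots H f) :
    ∃ g : {v // v ∈ vset T} ↪ W, IsHom H T g ∧ ∀ v, f (g v) = v.1 := by
  have hrange : ∀ v : {v // v ∈ vset T}, ∃ w, f w = v.1 := by
    rintro ⟨v, hv⟩
    obtain ⟨s, hsT, hvs⟩ := (mem_vset T v).1 hv
    obtain ⟨a, b, -, hs⟩ := (mem_slots H f s).1 (hf hsT)
    rw [hs, Sym2.mem_iff] at hvs
    rcases hvs with h | h
    · exact ⟨a, h.symm⟩
    · exact ⟨b, h.symm⟩
  choose g hg using hrange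
  have hinj : Function.Injective g := by
    intro v v' hvv
    apply Subtype.ext
    rw [← hg v, ← hg v', hvv]
  refine ⟨⟨g, hinj⟩, ?_, hg⟩
  intro a b ⟨s, hsT, hs⟩
  obtain ⟨x, y, hxy, hs'⟩ := (mem_slots H f s).1 (hf hsT)
  rw [hs] at hs'
  rw [Sym2.eq_iff] at hs'
  show H.Adj (g a) (g b)
  rcases hs' with ⟨h1, h2⟩ | ⟨h1, h2⟩
  · have ha : g a = x := f.injective (by rw [hg a, h1])
    have hb : g b = y := f.injective (by rw [hg b, h2])
    rw [ha, hb]; exact hxy
  · have ha : g a = y := f.injective (by rw [hg a, h1])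
    have hb : g b = x := f.injective (by rw [hg b, h2])
    rw [ha, hb]; exact hxy.symm

/-- The embeddings `f` of `W` that invert `g` on the vertex set of `T` are determined by their
restriction to the complement of the range of `g`: there are at most
`(n - v_T).descFactorial (|W| - v_T)` of them. -/
lemma card_ext_le (T : Finset (EdgeSlot n)) (g : {v // v ∈ vset T} ↪ W) :
    (Finset.univ.filter (fun f : W ↪ Fin n => ∀ v, f (g v) = v.1)).card
      ≤ (n - (vset T).card).descFactorial (Fintype.card W - (vset T).card) := by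
  classical
  set E := Finset.univ.filter (fun f : W ↪ Fin n => ∀ v, f (g v) = v.1) with hE
  -- the restriction map
  have hmem : ∀ f : {f // f ∈ E}, ∀ w : {w : W // w ∉ Set.range g}, f.1 w.1 ∉ vset T := by
    rintro ⟨f, hf⟩ ⟨w, hw⟩ hmem
    rw [hE, Finset.mem_filter] at hf
    apply hw
    refine ⟨⟨f w, hmem⟩, ?_⟩
    exact f.injective (hf.2 ⟨f w, hmem⟩)
  let r : {f // f ∈ E} → ({w : W // w ∉ Set.range g} ↪ {x : Fin n // x ∉ vset T}) :=
    fun f => ⟨fun w => ⟨f.1 w.1, hmem f w⟩, by
      intro w w' hww
      apply Subtype.ext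
      apply f.1.injective
      exact congrArg Subtype.val hww⟩
  have hr : Function.Injective r := by
    rintro ⟨f, hf⟩ ⟨f', hf'⟩ hff
    apply Subtype.ext
    show f = f'
    apply DFunLike.ext
    intro w
    rw [hE, Finset.mem_filter] at hf hf'
    by_cases hw : w ∈ Set.range g
    · obtain ⟨v, rfl⟩ := hw
      rw [hf.2 v, hf'.2 v]
    · have := congrArg (fun e : {w : W // w ∉ Set.range g} ↪ {x : Fin n // x ∉ vset T} =>
        (e ⟨w, hw⟩).1) hff
      exact this
  have h1 := Fintype.card_le_of_injective r hr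
  rw [Fintype.card_coe, Fintype.card_embedding_eq] at h1
  have hD : Fintype.card {x : Fin n // x ∉ vset T} = n - (vset T).card := by
    rw [Fintype.card_subtype_compl, Fintype.card_fin, Fintype.card_coe]
  have hC : Fintype.card {w : W // w ∉ Set.range g} = Fintype.card W - (vset T).card := by
    rw [Fintype.card_subtype_compl]
    congr 1
    have := Set.card_range_of_injective g.injective
    rw [Fintype.card_coe] at this
    convert this
  rw [hD, hC] at h1
  exact h1

/-- **Counting form of the spread numerator**: the embeddings whose copy of `H` contains `T`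
number at most `inj(T,H) * (n - v_T)_{|W| - v_T}`. -/
theorem card_filter_slots_le (H : SimpleGraph W) [DecidableRel H.Adj] (T : Finset (EdgeSlot n)) :
    (Finset.univ.filter (fun f : W ↪ Fin n => T ⊆ slots H f)).card
      ≤ injCount H T * (n - (vset T).card).descFactorial (Fintype.card W - (vset T).card) := by
  classical
  set I : Finset ({v // v ∈ vset T} ↪ W) := Finset.univ.filter (fun g => IsHom H T g) with hI
  have hsub : Finset.univ.filter (fun f : W ↪ Fin n => T ⊆ slots H f) ⊆
      I.biUnion (fun g => Finset.univ.filter (fun f : W ↪ Fin n => ∀ v, f (g v) = v.1)) := by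
    intro f hf
    rw [Finset.mem_filter] at hf
    obtain ⟨g, hg1, hg2⟩ := exists_hom_of_subset_slots H T f hf.2
    rw [Finset.mem_biUnion]
    refine ⟨g, ?_, ?_⟩
    · rw [hI, Finset.mem_filter]; exact ⟨Finset.mem_univ _, hg1⟩
    · rw [Finset.mem_filter]; exact ⟨Finset.mem_univ _, hg2⟩
  have hIcard : I.card = injCount H T := by
    unfold injCount
    rw [Nat.card_eq_fintype_card, Fintype.card_subtype]
  calc (Finset.univ.filter (fun f : W ↪ Fin n => T ⊆ slots H f)).card
      ≤ (I.biUnion (fun g => Finset.univ.filter (fun f : W ↪ Fin n => ∀ v, f (g v) = v.1))).card :=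
        Finset.card_le_card hsub
    _ ≤ ∑ g ∈ I, (Finset.univ.filter (fun f : W ↪ Fin n => ∀ v, f (g v) = v.1)).card :=
        Finset.card_biUnion_le
    _ ≤ ∑ _g ∈ I, (n - (vset T).card).descFactorial (Fintype.card W - (vset T).card) :=
        Finset.sum_le_sum (fun g _ => card_ext_le T g)
    _ = injCount H T * (n - (vset T).card).descFactorial (Fintype.card W - (vset T).card) := by
        rw [Finset.sum_const, smul_eq_mul, hIcard]

lemma descFactorial_split (n a k : ℕ) :
    n.descFactorial (a + k) = n.descFactorial a * (n - a).descFactorial k := by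
  induction k with
  | zero => simp
  | succ k ih =>
    rw [← Nat.add_assoc, Nat.descFactorial_succ, Nat.descFactorial_succ, ih, Nat.sub_sub]
    ring

/-- The spread condition for `T` follows from the bound `inj(T,H) ≤ c * (n)_{v_T}`. -/
theorem spread_of_injCount (H : SimpleGraph W) [DecidableRel H.Adj] (T : Finset (EdgeSlot n))
    (c : ℝ) (h : (injCount H T : ℝ) ≤ c * (n.descFactorial (vset T).card : ℝ)) :
    (((Finset.univ.filter (fun f : W ↪ Fin n => T ⊆ slots H f)).card : ℕ) : ℝ)
      ≤ c * (Fintype.card (W ↪ Fin n) : ℝ) := by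
  have h1 := card_filter_slots_le H T
  have hvn : (vset T).card ≤ n := by
    have := Finset.card_le_univ (vset T)
    rwa [Fintype.card_fin] at this
  have hpos : (0 : ℝ) < (n.descFactorial (vset T).card : ℝ) := by
    have : n.descFactorial (vset T).card ≠ 0 := by
      rw [Ne, Nat.descFactorial_eq_zero_iff_lt]
      omega
    exact_mod_cast Nat.pos_of_ne_zero this
  have hc : 0 ≤ c := by
    by_contra hneg
    have : c * (n.descFactorial (vset T).card : ℝ) < 0 :=
      mul_neg_of_neg_of_pos (not_le.1 hneg) hpos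
    have h0 : (0 : ℝ) ≤ (injCount H T : ℝ) := Nat.cast_nonneg _
    linarith
  by_cases hv : (vset T).card ≤ Fintype.card W
  · have h2 : Fintype.card (W ↪ Fin n) = n.descFactorial (vset T).card *
        (n - (vset T).card).descFactorial (Fintype.card W - (vset T).card) := by
      rw [Fintype.card_embedding_eq, Fintype.card_fin, ← descFactorial_split,
        Nat.add_sub_cancel' hv]
    have h1' : (((Finset.univ.filter (fun f : W ↪ Fin n => T ⊆ slots H f)).card : ℕ) : ℝ)
        ≤ (injCount H T : ℝ) *
          (((n - (vset T).card).descFactorial (Fintype.card W - (vset T).card) : ℕ) : ℝ) := by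
      exact_mod_cast h1
    have hD : (0 : ℝ) ≤
        (((n - (vset T).card).descFactorial (Fintype.card W - (vset T).card) : ℕ) : ℝ) :=
      Nat.cast_nonneg _
    calc (((Finset.univ.filter (fun f : W ↪ Fin n => T ⊆ slots H f)).card : ℕ) : ℝ)
        ≤ (injCount H T : ℝ) *
          (((n - (vset T).card).descFactorial (Fintype.card W - (vset T).card) : ℕ) : ℝ) := h1'
      _ ≤ (c * (n.descFactorial (vset T).card : ℝ)) *
          (((n - (vset T).card).descFactorial (Fintype.card W - (vset T).card) : ℕ) : ℝ) :=
          mul_le_mul_of_nonneg_right h hD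
      _ = c * (Fintype.card (W ↪ Fin n) : ℝ) := by
          rw [h2]; push_cast; ring
  · have hempty : injCount H T = 0 := by
      unfold injCount
      have hE : IsEmpty {g : {v // v ∈ vset T} ↪ W // IsHom H T g} := by
        constructor
        rintro ⟨g, -⟩
        have := Fintype.card_le_of_embedding g
        rw [Fintype.card_coe] at this
        exact hv this
      exact Nat.card_of_isEmpty
    rw [hempty, zero_mul] at h1
    have h0 : (Finset.univ.filter (fun f : W ↪ Fin n => T ⊆ slots H f)).card = 0 :=
      Nat.le_zero.1 h1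
    rw [h0, Nat.cast_zero]
    exact mul_nonneg hc (Nat.cast_nonneg _)

/-- **Conditional form of statement S0076, counting version**: the conclusion of S0076 follows
from `inj(T,H) ≤ (32 e^50 p)^{|T|} (n)_{v_T}` for every nonempty set `T` of edge slots
(a bound that is NOT proved here). -/
theorem s0076_of_injCount (n : ℕ) (W : Type) [Fintype W] [DecidableEq W] (H : SimpleGraph W)
    [DecidableRel H.Adj] (hW : Fintype.card W ≤ n) (p : ℝ) (hp0 : 0 ≤ p)
    (hinj : ∀ T : Finset (EdgeSlot n), T.Nonempty →
      (injCount H T : ℝ)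
        ≤ (32 * Real.exp 50 * p) ^ T.card * (n.descFactorial (vset T).card : ℝ)) :
    (1 : ℝ) / 2 ≤ gnpProb n
      (min 1 (2048 * Real.exp 50 * p * (1 + Real.logb 2 (H.edgeFinset.card : ℝ))))
      {G | H.IsContained G} :=
  s0076_of_spread n W H hW p hp0 (fun T hT => spread_of_injCount H T _ (hinj T hT))

/-- Scale-by-scale counting version of `gnp_of_spread`. -/
theorem gnp_of_injCount (n : ℕ) (W : Type) [Fintype W] [DecidableEq W] (H : SimpleGraph W)
    [DecidableRel H.Adj] (hW : Fintype.card W ≤ n) (y : ℕ → ℝ)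
    (hy : ∀ j, j < Nat.log 2 H.edgeFinset.card + 1 → 0 ≤ y j ∧ 64 * y j ≤ 1)
    (hs : ∀ (j : ℕ) (T : Finset (EdgeSlot n)), j < Nat.log 2 H.edgeFinset.card + 1 →
      2 ^ j ≤ T.card → T.card < 2 ^ (j + 1) →
      (injCount H T : ℝ) ≤ (y j) ^ T.card * (n.descFactorial (vset T).card : ℝ))
    (p' : ℝ) (hp' : ∑ j ∈ Finset.range (Nat.log 2 H.edgeFinset.card + 1), 64 * y j ≤ p')
    (hp'1 : p' ≤ 1) :
    (1 : ℝ) / 2 ≤ gnpProb n p' {G | H.IsContained G} :=
  gnp_of_spread n W H hW y hy
    (fun j T hj h1 h2 => spread_of_injCount H T _ (hs j T hj h1 h2)) p' hp' hp'1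

end Crest.Agent.Helper52.PP
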