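import Crest.Agent.Helper52.PP.Gnp

/-!
# The expected number of copies in the binomial random graph

`gnpExpect_copyCount`: the expectation of `G.copyCount F` for the binomial random graph on `Fin n`
equals `(number of copies of F in the complete graph) * p ^ e(F)`.  This turns the hypothesis of
statement S0076 into the purely combinatorial feasibility condition `N(F) p^{e(F)} ≥ 1/2`.
-/

set_option autoImplicit false
set_option linter.unusedSectionVars false

namespace Crest.Agent.Helper52.PP

open Finset Crest.CombinatoricsR.RandomGraph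

/-- The probability that all coordinates of `S` are `true` is `p ^ |S|`. -/
lemma sum_bw_all_true {ι : Type*} [Fintype ι] [DecidableEq ι] (p : ℝ) (S : Finset ι) :
    ∑ ω : ι → Bool, Crest.FinProb.bernoulliWeight p ω *
        (if ∀ i ∈ S, ω i = true then (1 : ℝ) else 0) = p ^ S.card := by
  classical
  set g : ι → Bool → ℝ := fun i b =>
    (if b then p else 1 - p) * (if i ∈ S then (if b then 1 else 0) else 1) with hg
  have h1 : ∀ ω : ι → Bool, Crest.FinProb.bernoulliWeight p ω *
      (if ∀ i ∈ S, ω i = true then (1 : ℝ) else 0) = ∏ i, g i (ω i) := by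
    intro ω
    simp only [hg]
    rw [Finset.prod_mul_distrib]
    congr 1
    by_cases h : ∀ i ∈ S, ω i = true
    · rw [if_pos h]
      symm
      apply Finset.prod_eq_one
      intro i _
      by_cases hi : i ∈ S
      · simp [hi, h i hi]
      · simp [hi]
    · rw [if_neg h]
      rw [not_forall] at h
      obtain ⟨i, hi⟩ := h
      rw [Classical.not_imp] at hi
      symm
      apply Finset.prod_eq_zero (Finset.mem_univ i)
      simp [hi.1, hi.2]
  simp_rw [h1]
  have h2 : ∑ ω : ι → Bool, ∏ i, g i (ω i) = ∏ i, ∑ b : Bool, g i b := by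
    rw [Finset.prod_univ_sum, Fintype.piFinset_univ]
  rw [h2]
  have h3 : ∀ i, ∑ b : Bool, g i b = if i ∈ S then p else 1 := by
    intro i
    simp only [hg, Fintype.sum_bool]
    by_cases hi : i ∈ S <;> simp [hi]
  simp_rw [h3]
  rw [Finset.prod_ite_mem]
  simp

section Copy

variable {n : ℕ}

lemma copyCount_eq_natCard {V W : Type*} [Fintype V] (G : SimpleGraph V) (F : SimpleGraph W) :
    G.copyCount F = Nat.card {G' : G.Subgraph // Nonempty (F ≃g G'.coe)} := by
  classical
  rw [SimpleGraph.copyCount, Nat.card_eq_fintype_card, Fintype.card_subtype]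

/-- A subgraph of `G` seen as a subgraph of the complete graph. -/
def toTop {G : SimpleGraph (Fin n)} (G' : G.Subgraph) : (⊤ : SimpleGraph (Fin n)).Subgraph where
  verts := G'.verts
  Adj := G'.Adj
  adj_sub := fun h => (SimpleGraph.top_adj _ _).mpr (G'.adj_sub h).ne
  edge_vert := fun h => G'.edge_vert h
  symm := G'.symm

/-- A subgraph of the complete graph whose edges lie in `G`, seen as a subgraph of `G`. -/
def ofTop (G : SimpleGraph (Fin n)) (G'' : (⊤ : SimpleGraph (Fin n)).Subgraph)
    (h : ∀ a b, G''.Adj a b → G.Adj a b) : G.Subgraph where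
  verts := G''.verts
  Adj := G''.Adj
  adj_sub := fun hab => h _ _ hab
  edge_vert := fun hab => G''.edge_vert hab
  symm := G''.symm

/-- Copies of `F` in `G` are the copies of `F` in the complete graph with all edges in `G`. -/
def copyEquiv {V : Type*} (F : SimpleGraph V) (G : SimpleGraph (Fin n)) :
    {G' : G.Subgraph // Nonempty (F ≃g G'.coe)} ≃
      {G'' : (⊤ : SimpleGraph (Fin n)).Subgraph //
        Nonempty (F ≃g G''.coe) ∧ ∀ a b, G''.Adj a b → G.Adj a b} where
  toFun x := ⟨toTop x.1, x.2, fun _ _ hab => x.1.adj_sub hab⟩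
  invFun y := ⟨ofTop G y.1 y.2.2, y.2.1⟩
  left_inv x := by
    apply Subtype.ext
    exact SimpleGraph.Subgraph.ext rfl rfl
  right_inv y := by
    apply Subtype.ext
    exact SimpleGraph.Subgraph.ext rfl rfl

/-- The edge slots of a subgraph of the complete graph. -/
noncomputable def subSlots (G'' : (⊤ : SimpleGraph (Fin n)).Subgraph) : Finset (EdgeSlot n) := by
  classical exact Finset.univ.filter (fun s : EdgeSlot n => s.1 ∈ G''.edgeSet)

lemma mem_subSlots (G'' : (⊤ : SimpleGraph (Fin n)).Subgraph) (s : EdgeSlot n) :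
    s ∈ subSlots G'' ↔ s.1 ∈ G''.edgeSet := by
  classical
  simp [subSlots]

lemma adj_le_graphOf_iff (G'' : (⊤ : SimpleGraph (Fin n)).Subgraph) (ω : EdgeSlot n → Bool) :
    (∀ a b, G''.Adj a b → (graphOf ω).Adj a b) ↔ ∀ s ∈ subSlots G'', ω s = true := by
  constructor
  · intro h s hs
    rw [mem_subSlots] at hs
    obtain ⟨z, hz⟩ := s
    induction z using Sym2.ind with
    | _ a b =>
      have hab : G''.Adj a b := SimpleGraph.Subgraph.mem_edgeSet.mp hs
      have hadj := h a b hab
      unfold graphOf at hadj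
      rw [SimpleGraph.fromEdgeSet_adj] at hadj
      obtain ⟨⟨_, htrue⟩, -⟩ := hadj
      exact htrue
  · intro h a b hab
    have hne : a ≠ b := (G''.adj_sub hab).ne
    have hnd : ¬ (s(a, b) : Sym2 (Fin n)).IsDiag := by
      rw [Sym2.mk_isDiag_iff]
      exact hne
    have hmem : (⟨s(a, b), hnd⟩ : EdgeSlot n) ∈ subSlots G'' := by
      rw [mem_subSlots]
      exact SimpleGraph.Subgraph.mem_edgeSet.mpr hab
    unfold graphOf
    rw [SimpleGraph.fromEdgeSet_adj]
    exact ⟨⟨hnd, h _ hmem⟩, hne⟩

lemma subSlots_card (G'' : (⊤ : SimpleGraph (Fin n)).Subgraph) {V : Type*} (F : SimpleGraph V)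
    (e : F ≃g G''.coe) : (subSlots G'').card = Nat.card F.edgeSet := by
  classical
  have h1 : Nat.card F.edgeSet = Nat.card G''.coe.edgeSet := Nat.card_congr e.mapEdgeSet
  have h2 : Nat.card G''.coe.edgeSet = G''.edgeSet.ncard := by
    rw [← SimpleGraph.Subgraph.image_coe_edgeSet_coe,
      Set.ncard_image_of_injective _ (Sym2.map.injective Subtype.val_injective)]
    rfl
  have h3 : G''.edgeSet.ncard = (subSlots G'').card := by
    have hset : G''.edgeSet = ↑((subSlots G'').image Subtype.val) := by
      ext z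
      simp only [Finset.coe_image, Set.mem_image, Finset.mem_coe, mem_subSlots]
      constructor
      · intro hz
        have hnd : ¬ z.IsDiag := by
          induction z using Sym2.ind with
          | _ a b =>
            rw [Sym2.mk_isDiag_iff]
            exact (G''.adj_sub (SimpleGraph.Subgraph.mem_edgeSet.mp hz)).ne
        exact ⟨⟨z, hnd⟩, hz, rfl⟩
      · rintro ⟨s, hs, rfl⟩
        exact hs
    rw [hset, Set.ncard_coe_finset, Finset.card_image_of_injective _ Subtype.val_injective]
  rw [h1, h2, h3]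

/-- **Expected number of copies.**  The expectation of the number of copies of `F` in the
binomial random graph on `Fin n` is the number of copies of `F` in the complete graph times
`p ^ e(F)`. -/
theorem gnpExpect_copyCount (n : ℕ) (p : ℝ) {V : Type*} (F : SimpleGraph V) :
    gnpExpect n p (fun G => (G.copyCount F : ℝ))
      = ((⊤ : SimpleGraph (Fin n)).copyCount F : ℝ) * p ^ (Nat.card F.edgeSet) := by
  classical
  unfold gnpExpect
  set 𝒮 : Finset ((⊤ : SimpleGraph (Fin n)).Subgraph) :=
    Finset.univ.filter (fun G'' => Nonempty (F ≃g G''.coe)) with h𝒮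
  have hcount : ∀ ω : EdgeSlot n → Bool, ((graphOf ω).copyCount F : ℝ)
      = ∑ G'' ∈ 𝒮, (if ∀ s ∈ subSlots G'', ω s = true then (1 : ℝ) else 0) := by
    intro ω
    rw [copyCount_eq_natCard, Nat.card_congr (copyEquiv F (graphOf ω)), Finset.sum_boole,
      ← Nat.card_eq_finsetCard]
    congr 1
    apply Nat.card_congr
    apply Equiv.subtypeEquivRight
    intro G''
    simp only [Finset.mem_filter, h𝒮, Finset.mem_univ, true_and]
    rw [adj_le_graphOf_iff]
  have hterm : ∀ G'' ∈ 𝒮, ∑ ω : EdgeSlot n → Bool, Crest.FinProb.bernoulliWeight p ω *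
      (if ∀ s ∈ subSlots G'', ω s = true then (1 : ℝ) else 0) = p ^ (Nat.card F.edgeSet) := by
    intro G'' hG''
    rw [sum_bw_all_true]
    obtain ⟨e⟩ := (Finset.mem_filter.mp hG'').2
    rw [subSlots_card G'' F e]
  have hcard : (𝒮.card : ℝ) = ((⊤ : SimpleGraph (Fin n)).copyCount F : ℝ) := by
    rw [copyCount_eq_natCard, ← Nat.card_eq_finsetCard]
    congr 1
    apply Nat.card_congr
    apply Equiv.subtypeEquivRight
    intro G''
    simp only [Finset.mem_filter, h𝒮, Finset.mem_univ, true_and]
  calc ∑ ω : EdgeSlot n → Bool, Crest.FinProb.bernoulliWeight p ω * ((graphOf ω).copyCount F : ℝ)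
      = ∑ ω : EdgeSlot n → Bool, ∑ G'' ∈ 𝒮, Crest.FinProb.bernoulliWeight p ω *
          (if ∀ s ∈ subSlots G'', ω s = true then (1 : ℝ) else 0) := by
        apply Finset.sum_congr rfl
        intro ω _
        rw [hcount ω, Finset.mul_sum]
    _ = ∑ G'' ∈ 𝒮, ∑ ω : EdgeSlot n → Bool, Crest.FinProb.bernoulliWeight p ω *
          (if ∀ s ∈ subSlots G'', ω s = true then (1 : ℝ) else 0) := Finset.sum_comm
    _ = ∑ G'' ∈ 𝒮, p ^ (Nat.card F.edgeSet) := Finset.sum_congr rfl hterm
    _ = ((⊤ : SimpleGraph (Fin n)).copyCount F : ℝ) * p ^ (Nat.card F.edgeSet) := by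
        rw [Finset.sum_const, nsmul_eq_mul, hcard]

/-- The hypothesis of statement S0076 in combinatorial form: for every subgraph `F` of `H`,
`N(F) * p ^ e(F) ≥ 1/2`, where `N(F)` is the number of copies of `F` in the complete graph on
`Fin n`. -/
theorem feasible_of_hE (n : ℕ) {W : Type} (H : SimpleGraph W) (p : ℝ)
    (hE : ∀ F : H.Subgraph, (1 : ℝ) / 2 ≤ gnpExpect n p (fun G => (G.copyCount F.coe : ℝ)))
    (F : H.Subgraph) :
    (1 : ℝ) / 2 ≤ ((⊤ : SimpleGraph (Fin n)).copyCount F.coe : ℝ) * p ^ (Nat.card F.coe.edgeSet) := by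
  rw [← gnpExpect_copyCount]
  exact hE F

end Copy

end Crest.Agent.Helper52.PP
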