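import Crest.Agent.Helper52.PP.Count
import Crest.Agent.Helper52.PP.Expect

/-!
# Permutation form of the counting glue (helper52; conditional package for row 55)

`Equiv.Perm (Fin n)` acts on the edge slots of `K_n` (`slotPerm`).  For a fixed embedding
`f0 : W ↪ Fin n` of `H`, with `H0 = slots H f0`:

* `slots_trans` : the copy along `f0.trans σ` is `σ • H0`;
* `card_perm_filter` : every predicate on embeddings is hit by `(n - |W|)!` permutations per
  embedding, so `#{σ | T ⊆ σ • H0} = #{f | T ⊆ slots H f} * (n - |W|)!`  (`card_perm_subset`).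

Nothing here proves a spread bound.
-/

set_option autoImplicit false
set_option linter.unusedSectionVars false

namespace Crest.Agent.Helper52.PP

open Finset Crest.CombinatoricsR.RandomGraph

variable {n : ℕ} {W : Type} [Fintype W] [DecidableEq W]

/-- A permutation of the vertices of `K_n` permutes the edge slots. -/
def slotPerm (σ : Equiv.Perm (Fin n)) : EdgeSlot n ≃ EdgeSlot n where
  toFun s := ⟨Sym2.map σ s.1, fun hd => s.2 ((Sym2.isDiag_map σ.injective).1 hd)⟩
  invFun s := ⟨Sym2.map σ.symm s.1, fun hd => s.2 ((Sym2.isDiag_map σ.symm.injective).1 hd)⟩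
  left_inv s := by
    apply Subtype.ext
    show Sym2.map σ.symm (Sym2.map σ s.1) = s.1
    rw [Sym2.map_map, Equiv.symm_comp_self, Sym2.map_id, id]
  right_inv s := by
    apply Subtype.ext
    show Sym2.map σ (Sym2.map σ.symm s.1) = s.1
    rw [Sym2.map_map, Equiv.self_comp_symm, Sym2.map_id, id]

@[simp] lemma slotPerm_val (σ : Equiv.Perm (Fin n)) (s : EdgeSlot n) :
    (slotPerm σ s).1 = Sym2.map σ s.1 := rfl

lemma slotPerm_one : slotPerm (1 : Equiv.Perm (Fin n)) = Equiv.refl (EdgeSlot n) := by
  apply Equiv.ext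
  intro s
  apply Subtype.ext
  show Sym2.map (1 : Equiv.Perm (Fin n)) s.1 = s.1
  have : ((1 : Equiv.Perm (Fin n)) : Fin n → Fin n) = id := rfl
  rw [this, Sym2.map_id, id]

lemma slotPerm_mul (σ τ : Equiv.Perm (Fin n)) :
    slotPerm (σ * τ) = (slotPerm τ).trans (slotPerm σ) := by
  apply Equiv.ext
  intro s
  apply Subtype.ext
  show Sym2.map (σ * τ) s.1 = Sym2.map σ (Sym2.map τ s.1)
  rw [Sym2.map_map]
  rfl

/-- The copy of `H` along `f0.trans σ` is the image under `σ` of the copy along `f0`. -/
lemma slots_trans (H : SimpleGraph W) [DecidableRel H.Adj] (f0 : W ↪ Fin n)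
    (σ : Equiv.Perm (Fin n)) :
    slots H (f0.trans σ.toEmbedding) = (slots H f0).map (slotPerm σ).toEmbedding := by
  ext s
  rw [mem_slots, Finset.mem_map]
  constructor
  · rintro ⟨a, b, hab, hs⟩
    have hne : f0 a ≠ f0 b := fun he => hab.ne (f0.injective he)
    have hnd : ¬ (s(f0 a, f0 b) : Sym2 (Fin n)).IsDiag := by
      rw [Sym2.mk_isDiag_iff]; exact hne
    refine ⟨⟨s(f0 a, f0 b), hnd⟩, ?_, ?_⟩
    · rw [mem_slots]; exact ⟨a, b, hab, rfl⟩
    · apply Subtype.ext
      rw [hs]
      rfl
  · rintro ⟨s0, hs0, rfl⟩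
    obtain ⟨a, b, hab, hs⟩ := (mem_slots H f0 s0).1 hs0
    refine ⟨a, b, hab, ?_⟩
    show Sym2.map σ s0.1 = _
    rw [hs]
    rfl

/-- Permutations act transitively on the embeddings of `W`. -/
lemma exists_perm_trans (f0 f : W ↪ Fin n) :
    ∃ τ : Equiv.Perm (Fin n), f0.trans τ.toEmbedding = f := by
  classical
  let e : {x // x ∈ Set.range f0} ≃ {x // x ∈ Set.range f} :=
    (Equiv.ofInjective f0 f0.injective).symm.trans (Equiv.ofInjective f f.injective)
  refine ⟨e.extendSubtype, ?_⟩
  ext w
  show ((e.extendSubtype (f0 w) : Fin n) : ℕ) = f w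
  rw [Equiv.extendSubtype_apply_of_mem e (f0 w) ⟨w, rfl⟩]
  show (((Equiv.ofInjective f f.injective)
    ((Equiv.ofInjective f0 f0.injective).symm ⟨f0 w, ⟨w, rfl⟩⟩) : Fin n) : ℕ) = f w
  rw [Equiv.ofInjective_symm_apply]
  rfl

/-- All fibres of `σ ↦ f0.trans σ` have the same size. -/
lemma card_fibre_eq (f0 f : W ↪ Fin n) :
    (Finset.univ.filter (fun σ : Equiv.Perm (Fin n) => f0.trans σ.toEmbedding = f)).card
      = (Finset.univ.filter (fun σ : Equiv.Perm (Fin n) => f0.trans σ.toEmbedding = f0)).card := by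
  classical
  obtain ⟨τ, hτ⟩ := exists_perm_trans f0 f
  symm
  refine Finset.card_bij' (fun σ _ => τ * σ) (fun σ _ => τ⁻¹ * σ) ?_ ?_ ?_ ?_
  · intro σ hσ
    rw [Finset.mem_filter] at hσ ⊢
    refine ⟨Finset.mem_univ _, ?_⟩
    rw [← hτ]
    ext w
    have := congrArg (fun g : W ↪ Fin n => g w) hσ.2
    show ((τ (σ (f0 w)) : Fin n) : ℕ) = τ (f0 w)
    have h2 : σ (f0 w) = f0 w := this
    rw [h2]
  · intro σ hσ
    rw [Finset.mem_filter] at hσ ⊢
    refine ⟨Finset.mem_univ _, ?_⟩
    ext w
    have h1 := congrArg (fun g : W ↪ Fin n => g w) hσ.2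
    have h2 := congrArg (fun g : W ↪ Fin n => g w) hτ
    have h1' : σ (f0 w) = f w := h1
    have h2' : τ (f0 w) = f w := h2
    show ((τ⁻¹ (σ (f0 w)) : Fin n) : ℕ) = f0 w
    rw [h1', ← h2']
    simp
  · intro σ _
    simp
  · intro σ _
    simp

/-- **Embeddings versus permutations**: every predicate on the embeddings of `W` is satisfied
by exactly `(n - |W|)!` permutations (through `σ ↦ f0.trans σ`) per embedding satisfying it. -/
theorem card_perm_filter (f0 : W ↪ Fin n) (P : (W ↪ Fin n) → Prop) [DecidablePred P] :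
    (Finset.univ.filter (fun σ : Equiv.Perm (Fin n) => P (f0.trans σ.toEmbedding))).card
      = (Finset.univ.filter (fun f : W ↪ Fin n => P f)).card * (n - Fintype.card W).factorial := by
  classical
  set S := (Finset.univ.filter
    (fun σ : Equiv.Perm (Fin n) => f0.trans σ.toEmbedding = f0)).card with hS
  have key : ∀ (Q : (W ↪ Fin n) → Prop) [DecidablePred Q],
      (Finset.univ.filter (fun σ : Equiv.Perm (Fin n) => Q (f0.trans σ.toEmbedding))).card
        = (Finset.univ.filter (fun f : W ↪ Fin n => Q f)).card * S := by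
    intro Q _
    have hmaps : ∀ σ ∈ Finset.univ.filter
        (fun σ : Equiv.Perm (Fin n) => Q (f0.trans σ.toEmbedding)),
        f0.trans σ.toEmbedding ∈ Finset.univ.filter (fun f : W ↪ Fin n => Q f) := by
      intro σ hσ
      rw [Finset.mem_filter] at hσ ⊢
      exact ⟨Finset.mem_univ _, hσ.2⟩
    rw [Finset.card_eq_sum_card_fiberwise hmaps]
    have hfib : ∀ f ∈ Finset.univ.filter (fun f : W ↪ Fin n => Q f),
        ((Finset.univ.filter (fun σ : Equiv.Perm (Fin n) => Q (f0.trans σ.toEmbedding))).filter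
          (fun σ => f0.trans σ.toEmbedding = f)).card = S := by
      intro f hf
      rw [Finset.mem_filter] at hf
      rw [hS, ← card_fibre_eq f0 f]
      congr 1
      ext σ
      simp only [Finset.mem_filter, Finset.mem_univ, true_and]
      constructor
      · exact fun h => h.2
      · intro h
        exact ⟨by rw [h]; exact hf.2, h⟩
    rw [Finset.sum_congr rfl hfib, Finset.sum_const, smul_eq_mul]
  have hW : Fintype.card W ≤ n := by
    have := Fintype.card_le_of_embedding f0
    rwa [Fintype.card_fin] at this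
  have htot := key (fun _ => True)
  simp only [Finset.filter_true_of_mem (fun _ _ => trivial), Finset.card_univ] at htot
  rw [Fintype.card_perm, Fintype.card_fin, Fintype.card_embedding_eq, Fintype.card_fin] at htot
  have hfac := Nat.factorial_mul_descFactorial hW
  have hpos : 0 < n.descFactorial (Fintype.card W) := by
    apply Nat.pos_of_ne_zero
    rw [Ne, Nat.descFactorial_eq_zero_iff_lt]
    omega
  have hSval : S = (n - Fintype.card W).factorial := by
    have : n.descFactorial (Fintype.card W) * S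
        = n.descFactorial (Fintype.card W) * (n - Fintype.card W).factorial := by
      rw [← htot, ← hfac, Nat.mul_comm]
    exact Nat.eq_of_mul_eq_mul_left hpos this
  rw [key P, hSval]

/-- (G5') The permutations `σ` with `T ⊆ σ • H0`, `H0 = slots H f0`, number
`#{f | T ⊆ slots H f} * (n - |W|)!`. -/
theorem card_perm_subset (H : SimpleGraph W) [DecidableRel H.Adj] (f0 : W ↪ Fin n)
    (T : Finset (EdgeSlot n)) :
    (Finset.univ.filter (fun σ : Equiv.Perm (Fin n) =>
        T ⊆ (slots H f0).map (slotPerm σ).toEmbedding)).card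
      = (Finset.univ.filter (fun f : W ↪ Fin n => T ⊆ slots H f)).card
          * (n - Fintype.card W).factorial := by
  classical
  rw [← card_perm_filter f0 (fun f : W ↪ Fin n => T ⊆ slots H f)]
  congr 1
  ext σ
  simp only [Finset.mem_filter, Finset.mem_univ, true_and]
  rw [slots_trans]

end Crest.Agent.Helper52.PP
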