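import Crest.Agent.Helper52.PP.Perm

/-!
# Stabiliser form of the feasibility hypothesis (helper52; conditional package for row 55)

`card_stab_le` : under the hypothesis `hE` of statement S0076, for a fixed embedding `f0` of `H`
and every set `A` of edge slots of the copy `slots H f0`, the permutations `σ` of `Fin n` with
`σ • A = A` number at most `2 * n! * p ^ |A|`.

(Proof: `F` := the subgraph of `H` spanned by the edges over `A`; every copy of `F` in `K_n` is
`σ • A` for some `σ`, and `(copy, τ) ↦ σ_copy * τ` is injective on copies × stabiliser, so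
`N(F) * |stab A| ≤ n!`; then `1/2 ≤ N(F) p^{|A|}`.)
-/

set_option autoImplicit false
set_option linter.unusedSectionVars false

namespace Crest.Agent.Helper52.PP

open Finset Crest.CombinatoricsR.RandomGraph

variable {n : ℕ} {W : Type} [Fintype W] [DecidableEq W]

/-- The subgraph of `H` spanned by the edges lying over the slots of `A` (along `f0`). -/
def subOf (H : SimpleGraph W) (f0 : W ↪ Fin n) (A : Finset (EdgeSlot n)) : H.Subgraph where
  verts := {w | ∃ s ∈ A, f0 w ∈ s.1}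
  Adj a b := H.Adj a b ∧ ∃ s ∈ A, s.1 = s(f0 a, f0 b)
  adj_sub := fun h => h.1
  edge_vert := by
    rintro a b ⟨-, s, hs, hs'⟩
    exact ⟨s, hs, by rw [hs']; exact Sym2.mem_mk_left _ _⟩
  symm := ⟨by
    rintro a b ⟨hab, s, hs, hs'⟩
    exact ⟨hab.symm, s, hs, by rw [hs', Sym2.eq_swap]⟩⟩

lemma subOf_adj (H : SimpleGraph W) (f0 : W ↪ Fin n) (A : Finset (EdgeSlot n)) (a b : W) :
    (subOf H f0 A).Adj a b ↔ H.Adj a b ∧ ∃ s ∈ A, s.1 = s(f0 a, f0 b) := Iff.rfl

lemma mem_subOf_verts (H : SimpleGraph W) (f0 : W ↪ Fin n) (A : Finset (EdgeSlot n)) (a : W) :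
    a ∈ (subOf H f0 A).verts ↔ ∃ s ∈ A, f0 a ∈ s.1 := Iff.rfl

/-- Every vertex of `subOf` has a neighbour (when `A` lies in the copy of `H`). -/
lemma subOf_exists_adj (H : SimpleGraph W) [DecidableRel H.Adj] (f0 : W ↪ Fin n)
    (A : Finset (EdgeSlot n)) (hA : A ⊆ slots H f0) (a : W) (ha : a ∈ (subOf H f0 A).verts) :
    ∃ b, (subOf H f0 A).Adj a b := by
  obtain ⟨s, hs, hmem⟩ := ha
  obtain ⟨x, y, hxy, hs'⟩ := (mem_slots H f0 s).1 (hA hs)
  rw [hs', Sym2.mem_iff] at hmem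
  rcases hmem with h | h
  · have : a = x := f0.injective h
    subst this
    exact ⟨y, hxy, s, hs, hs'⟩
  · have : a = y := f0.injective h
    subst this
    exact ⟨x, hxy.symm, s, hs, by rw [hs', Sym2.eq_swap]⟩

/-- The number of edges of `subOf` is `|A|`. -/
lemma subOf_card_edgeSet (H : SimpleGraph W) [DecidableRel H.Adj] (f0 : W ↪ Fin n)
    (A : Finset (EdgeSlot n)) (hA : A ⊆ slots H f0) :
    Nat.card (subOf H f0 A).coe.edgeSet = A.card := by
  classical
  set F := subOf H f0 A with hF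
  have hex : ∀ e' : F.coe.edgeSet, ∃ s : {s // s ∈ A},
      s.1.1 = Sym2.map (fun a : F.verts => f0 a.1) e'.1 := by
    rintro ⟨e', he'⟩
    induction e' using Sym2.ind with
    | _ a b =>
      have hab : F.coe.Adj a b := he'
      have hab' : F.Adj a.1 b.1 := hab
      obtain ⟨-, s, hs, hs'⟩ := hab'
      exact ⟨⟨s, hs⟩, hs'⟩
  choose g hg using hex
  have hinj : Function.Injective (fun a : F.verts => f0 a.1) :=
    f0.injective.comp Subtype.val_injective
  rw [← Nat.card_eq_finsetCard A]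
  apply Nat.card_congr
  refine Equiv.ofBijective g ⟨?_, ?_⟩
  · intro e1 e2 h12
    apply Subtype.ext
    apply Sym2.map.injective hinj
    rw [← hg e1, ← hg e2, h12]
  · rintro ⟨s, hs⟩
    obtain ⟨x, y, hxy, hs'⟩ := (mem_slots H f0 s).1 (hA hs)
    have hx : x ∈ F.verts := ⟨s, hs, by rw [hs']; exact Sym2.mem_mk_left _ _⟩
    have hy : y ∈ F.verts := ⟨s, hs, by rw [hs']; exact Sym2.mem_mk_right _ _⟩
    have hadj : F.coe.Adj ⟨x, hx⟩ ⟨y, hy⟩ := ⟨hxy, s, hs, hs'⟩
    refine ⟨⟨s(⟨x, hx⟩, ⟨y, hy⟩), hadj⟩, ?_⟩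
    apply Subtype.ext
    apply Subtype.ext
    rw [hg]
    rw [hs']
    rfl

/-- Every copy of `subOf H f0 A` in the complete graph is the image of `A` under a permutation. -/
lemma exists_perm_of_copy (H : SimpleGraph W) [DecidableRel H.Adj] (f0 : W ↪ Fin n)
    (A : Finset (EdgeSlot n)) (hA : A ⊆ slots H f0)
    (G'' : (⊤ : SimpleGraph (Fin n)).Subgraph) (e : (subOf H f0 A).coe ≃g G''.coe) :
    ∃ σ : Equiv.Perm (Fin n), A.map (slotPerm σ).toEmbedding = subSlots G'' := by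
  classical
  set F := subOf H f0 A with hF
  have hinj : Function.Injective (fun a : F.verts => f0 a.1) :=
    f0.injective.comp Subtype.val_injective
  let e' : {x // x ∈ Set.range (fun a : F.verts => f0 a.1)} ≃ {x // x ∈ G''.verts} :=
    (Equiv.ofInjective (fun a : F.verts => f0 a.1) hinj).symm.trans e.toEquiv
  have hσ : ∀ a : F.verts, e'.extendSubtype (f0 a.1) = (e a).1 := by
    intro a
    rw [Equiv.extendSubtype_apply_of_mem e' (f0 a.1) ⟨a, rfl⟩]
    show ((e ((Equiv.ofInjective (fun a : F.verts => f0 a.1) hinj).symm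
      ⟨f0 a.1, ⟨a, rfl⟩⟩) : G''.verts) : Fin n) = (e a).1
    rw [Equiv.ofInjective_symm_apply (f := fun a : F.verts => f0 a.1) hinj a]
  refine ⟨e'.extendSubtype, ?_⟩
  ext s
  rw [Finset.mem_map, mem_subSlots]
  constructor
  · rintro ⟨s0, hs0, rfl⟩
    obtain ⟨x, y, hxy, hs'⟩ := (mem_slots H f0 s0).1 (hA hs0)
    have hx : x ∈ F.verts := ⟨s0, hs0, by rw [hs']; exact Sym2.mem_mk_left _ _⟩
    have hy : y ∈ F.verts := ⟨s0, hs0, by rw [hs']; exact Sym2.mem_mk_right _ _⟩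
    have hadj : F.coe.Adj ⟨x, hx⟩ ⟨y, hy⟩ := ⟨hxy, s0, hs0, hs'⟩
    have hadj' : G''.coe.Adj (e ⟨x, hx⟩) (e ⟨y, hy⟩) := e.map_rel_iff.2 hadj
    have hadj'' : G''.Adj (e ⟨x, hx⟩).1 (e ⟨y, hy⟩).1 := hadj'
    show Sym2.map (e'.extendSubtype) s0.1 ∈ G''.edgeSet
    rw [hs']
    show s(e'.extendSubtype (f0 x), e'.extendSubtype (f0 y)) ∈ G''.edgeSet
    rw [hσ ⟨x, hx⟩, hσ ⟨y, hy⟩]
    exact SimpleGraph.Subgraph.mem_edgeSet.mpr hadj''
  · intro hs
    obtain ⟨z, hz⟩ := s
    induction z using Sym2.ind with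
    | _ x y =>
      have hxy : G''.Adj x y := SimpleGraph.Subgraph.mem_edgeSet.mp hs
      have hx : x ∈ G''.verts := G''.edge_vert hxy
      have hy : y ∈ G''.verts := G''.edge_vert hxy.symm
      have hadj : G''.coe.Adj ⟨x, hx⟩ ⟨y, hy⟩ := hxy
      have hadj' : F.coe.Adj (e.symm ⟨x, hx⟩) (e.symm ⟨y, hy⟩) := by
        rw [← e.map_rel_iff]
        simpa using hadj
      have hadj'' : F.Adj (e.symm ⟨x, hx⟩).1 (e.symm ⟨y, hy⟩).1 := hadj'
      obtain ⟨-, s0, hs0, hs0'⟩ := hadj''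
      refine ⟨s0, hs0, ?_⟩
      apply Subtype.ext
      show Sym2.map (e'.extendSubtype) s0.1 = s(x, y)
      rw [hs0']
      show s(e'.extendSubtype (f0 (e.symm ⟨x, hx⟩).1), e'.extendSubtype (f0 (e.symm ⟨y, hy⟩).1))
        = s(x, y)
      rw [hσ (e.symm ⟨x, hx⟩), hσ (e.symm ⟨y, hy⟩)]
      simp

/-- A copy of a graph without isolated vertices is determined by its edge slots. -/
lemma copy_eq_of_subSlots_eq {V : Type*} (F : SimpleGraph V) (hF : ∀ a, ∃ b, F.Adj a b)
    (G₁ G₂ : (⊤ : SimpleGraph (Fin n)).Subgraph) (e₁ : F ≃g G₁.coe) (e₂ : F ≃g G₂.coe)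
    (h : subSlots G₁ = subSlots G₂) : G₁ = G₂ := by
  have hadj : ∀ (G G' : (⊤ : SimpleGraph (Fin n)).Subgraph), subSlots G = subSlots G' →
      ∀ x y, G.Adj x y → G'.Adj x y := by
    intro G G' hGG x y hxy
    have hne : x ≠ y := (G.adj_sub hxy).ne
    have hnd : ¬ (s(x, y) : Sym2 (Fin n)).IsDiag := by
      rw [Sym2.mk_isDiag_iff]; exact hne
    have hmem : (⟨s(x, y), hnd⟩ : EdgeSlot n) ∈ subSlots G := by
      rw [mem_subSlots]; exact SimpleGraph.Subgraph.mem_edgeSet.mpr hxy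
    rw [hGG, mem_subSlots] at hmem
    exact SimpleGraph.Subgraph.mem_edgeSet.mp hmem
  have hverts : ∀ (G G' : (⊤ : SimpleGraph (Fin n)).Subgraph) (e : F ≃g G.coe),
      subSlots G = subSlots G' → G.verts ⊆ G'.verts := by
    intro G G' e hGG x hx
    obtain ⟨b, hb⟩ := hF (e.symm ⟨x, hx⟩)
    have h1 : G.coe.Adj (e (e.symm ⟨x, hx⟩)) (e b) := e.map_rel_iff.2 hb
    rw [e.apply_symm_apply] at h1
    have h2 : G.Adj x (e b).1 := h1
    exact G'.edge_vert (hadj G G' hGG _ _ h2)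
  apply SimpleGraph.Subgraph.ext
  · exact Set.Subset.antisymm (hverts G₁ G₂ e₁ h) (hverts G₂ G₁ e₂ h.symm)
  · funext x y
    exact propext ⟨hadj G₁ G₂ h x y, hadj G₂ G₁ h.symm x y⟩

lemma map_slotPerm_mul (A : Finset (EdgeSlot n)) (σ τ : Equiv.Perm (Fin n)) :
    A.map (slotPerm (σ * τ)).toEmbedding
      = (A.map (slotPerm τ).toEmbedding).map (slotPerm σ).toEmbedding := by
  rw [slotPerm_mul, Finset.map_map]
  rfl

/-- `N(F) * |stab A| ≤ n!` for `F = subOf H f0 A`. -/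
theorem copyCount_mul_card_stab_le (H : SimpleGraph W) [DecidableRel H.Adj] (f0 : W ↪ Fin n)
    (A : Finset (EdgeSlot n)) (hA : A ⊆ slots H f0) :
    (⊤ : SimpleGraph (Fin n)).copyCount (subOf H f0 A).coe *
      (Finset.univ.filter
        (fun σ : Equiv.Perm (Fin n) => A.map (slotPerm σ).toEmbedding = A)).card
      ≤ n.factorial := by
  classical
  set F := subOf H f0 A with hF
  have hFiso : ∀ a : F.verts, ∃ b : F.verts, F.coe.Adj a b := by
    rintro ⟨a, ha⟩
    obtain ⟨b, hb⟩ := subOf_exists_adj H f0 A hA a ha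
    exact ⟨⟨b, F.edge_vert hb.symm⟩, hb⟩
  have hsel : ∀ G : {G'' : (⊤ : SimpleGraph (Fin n)).Subgraph // Nonempty (F.coe ≃g G''.coe)},
      ∃ σ : Equiv.Perm (Fin n), A.map (slotPerm σ).toEmbedding = subSlots G.1 := by
    rintro ⟨G'', ⟨e⟩⟩
    exact exists_perm_of_copy H f0 A hA G'' e
  choose sel hsel' using hsel
  let Φ : {G'' : (⊤ : SimpleGraph (Fin n)).Subgraph // Nonempty (F.coe ≃g G''.coe)} ×
      {τ : Equiv.Perm (Fin n) // A.map (slotPerm τ).toEmbedding = A} → Equiv.Perm (Fin n) :=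
    fun x => sel x.1 * x.2.1
  have hΦ : Function.Injective Φ := by
    rintro ⟨G1, τ1, h1⟩ ⟨G2, τ2, h2⟩ h12
    have h12' : sel G1 * τ1 = sel G2 * τ2 := h12
    have e1 : A.map (slotPerm (sel G1 * τ1)).toEmbedding = subSlots G1.1 := by
      rw [map_slotPerm_mul, h1, hsel']
    have e2 : A.map (slotPerm (sel G2 * τ2)).toEmbedding = subSlots G2.1 := by
      rw [map_slotPerm_mul, h2, hsel']
    have hG : G1 = G2 := by
      apply Subtype.ext
      obtain ⟨i1⟩ := G1.2
      obtain ⟨i2⟩ := G2.2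
      exact copy_eq_of_subSlots_eq F.coe hFiso G1.1 G2.1 i1 i2 (by rw [← e1, ← e2, h12'])
    subst hG
    have hτ : τ1 = τ2 := mul_left_cancel h12'
    subst hτ
    rfl
  have hcard := Fintype.card_le_of_injective Φ hΦ
  rw [Fintype.card_prod, Fintype.card_perm, Fintype.card_fin, Fintype.card_subtype,
    Fintype.card_subtype] at hcard
  rw [copyCount_eq_natCard, Nat.card_eq_fintype_card, Fintype.card_subtype]
  exact hcard

/-- **Stabiliser form of feasibility** (GL2): under the hypothesis `hE` of statement S0076,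
every set `A` of slots of the copy `slots H f0` is fixed by at most `2 * n! * p ^ |A|`
permutations of `Fin n`. -/
theorem card_stab_le (H : SimpleGraph W) [DecidableRel H.Adj] (p : ℝ) (hp0 : 0 ≤ p)
    (hE : ∀ F : H.Subgraph, (1 : ℝ) / 2 ≤ gnpExpect n p (fun G => (G.copyCount F.coe : ℝ)))
    (f0 : W ↪ Fin n) (A : Finset (EdgeSlot n)) (hA : A ⊆ slots H f0) :
    (((Finset.univ.filter
        (fun σ : Equiv.Perm (Fin n) => A.map (slotPerm σ).toEmbedding = A)).card : ℕ) : ℝ)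
      ≤ 2 * (n.factorial : ℝ) * p ^ A.card := by
  have h1 := feasible_of_hE n H p hE (subOf H f0 A)
  rw [subOf_card_edgeSet H f0 A hA] at h1
  have h2 := copyCount_mul_card_stab_le H f0 A hA
  have h2' : (((⊤ : SimpleGraph (Fin n)).copyCount (subOf H f0 A).coe : ℕ) : ℝ) *
      (((Finset.univ.filter
        (fun σ : Equiv.Perm (Fin n) => A.map (slotPerm σ).toEmbedding = A)).card : ℕ) : ℝ)
      ≤ (n.factorial : ℝ) := by exact_mod_cast h2
  have hS : (0 : ℝ) ≤ (((Finset.univ.filter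
        (fun σ : Equiv.Perm (Fin n) => A.map (slotPerm σ).toEmbedding = A)).card : ℕ) : ℝ) :=
    Nat.cast_nonneg _
  have hp : 0 ≤ p ^ A.card := pow_nonneg hp0 _
  nlinarith [mul_le_mul_of_nonneg_left h1 hS, mul_le_mul_of_nonneg_right h2' hp]

end Crest.Agent.Helper52.PP
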