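import Mathlib
import Crest.Prelude.Def_FinProb

/-!
# Park–Pham, part 1: Bernoulli weights of finite sets

Basic facts on the product weight `wt x W = ∏ i, if i ∈ W then x else 1 - x` of a finite set,
the union identity (the union of two independent Bernoulli sets of densities `a`, `b` is a Bernoulli
set of density `a + b - a b`), monotonicity in the density, and the link with
`Crest.FinProb.bernoulliProb`.
-/

set_option autoImplicit false

namespace Crest.Agent.Helper52.PP

open Finset

variable {ι : Type*} [Fintype ι] [DecidableEq ι]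

/-- Bernoulli weight of a finite set at density `x`. -/
noncomputable def wt (x : ℝ) (W : Finset ι) : ℝ := ∏ i, if i ∈ W then x else 1 - x

lemma wt_nonneg {x : ℝ} (h0 : 0 ≤ x) (h1 : x ≤ 1) (W : Finset ι) : 0 ≤ wt x W := by
  unfold wt
  apply Finset.prod_nonneg
  intro i _
  split_ifs <;> linarith

lemma wt_eq (x : ℝ) (W : Finset ι) : wt x W = x ^ W.card * (1 - x) ^ (Wᶜ).card := by
  unfold wt
  rw [Finset.prod_ite]
  simp only [Finset.prod_const]
  congr 2
  · congr 1
    ext i; simp
  · congr 1
    ext i; simp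

lemma sum_wt (x : ℝ) : ∑ W : Finset ι, wt x W = 1 := by
  have h := Fintype.prod_add (fun _ : ι => x) (fun _ => 1 - x)
  simp only [add_sub_cancel, Finset.prod_const_one, Finset.prod_const] at h
  rw [h]
  apply Finset.sum_congr rfl
  intro W _
  exact wt_eq x W

/-- Weight shift: adding a disjoint set `T`. -/
lemma wt_mul_pow_of_disjoint (x : ℝ) {W T : Finset ι} (hd : Disjoint W T) :
    wt x W * x ^ T.card = wt x (W ∪ T) * (1 - x) ^ T.card := by
  have h1 : (W ∪ T).card = W.card + T.card := Finset.card_union_of_disjoint hd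
  have h2 : (Wᶜ).card = ((W ∪ T)ᶜ).card + T.card := by
    rw [Finset.card_compl, Finset.card_compl, h1]
    have := Finset.card_le_univ (W ∪ T)
    omega
  rw [wt_eq, wt_eq, h1, h2]
  ring

/-- The set of `true` coordinates of an outcome. -/
def tset (ω : ι → Bool) : Finset ι := Finset.univ.filter (fun i => ω i = true)

omit [DecidableEq ι] in
@[simp] lemma mem_tset (ω : ι → Bool) (i : ι) : i ∈ tset ω ↔ ω i = true := by
  simp [tset]

/-- Outcomes and finite sets are the same thing. -/
def setEquiv : (ι → Bool) ≃ Finset ι where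
  toFun := tset
  invFun W := fun i => decide (i ∈ W)
  left_inv ω := by
    funext i
    simp
  right_inv W := by
    ext i
    simp

lemma bw_eq_wt (x : ℝ) (ω : ι → Bool) : Crest.FinProb.bernoulliWeight x ω = wt x (tset ω) := by
  unfold Crest.FinProb.bernoulliWeight wt
  apply Finset.prod_congr rfl
  intro i _
  simp

lemma tset_or (ω₁ ω₂ : ι → Bool) : tset (fun i => ω₁ i || ω₂ i) = tset ω₁ ∪ tset ω₂ := by
  ext i
  simp

/-- Union identity for outcomes. -/
lemma bw_union (a b : ℝ) (F : (ι → Bool) → ℝ) :
    ∑ ω₁ : ι → Bool, ∑ ω₂ : ι → Bool,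
        Crest.FinProb.bernoulliWeight a ω₁ * Crest.FinProb.bernoulliWeight b ω₂ *
          F (fun i => ω₁ i || ω₂ i)
      = ∑ ω : ι → Bool, Crest.FinProb.bernoulliWeight (a + b - a * b) ω * F ω := by
  classical
  set g : Bool × Bool → ℝ := fun y => (if y.1 then a else 1 - a) * (if y.2 then b else 1 - b)
    with hg
  have h1 : ∑ ω₁ : ι → Bool, ∑ ω₂ : ι → Bool,
        Crest.FinProb.bernoulliWeight a ω₁ * Crest.FinProb.bernoulliWeight b ω₂ *
          F (fun i => ω₁ i || ω₂ i)
      = ∑ x : ι → Bool × Bool, (∏ i, g (x i)) * F (fun i => (x i).1 || (x i).2) := by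
    rw [← Fintype.sum_prod_type']
    rw [← (Equiv.arrowProdEquivProdArrow ι (fun _ => Bool) (fun _ => Bool)).sum_comp]
    apply Finset.sum_congr rfl
    intro x _
    have hprod : (∏ i, g (x i)) = Crest.FinProb.bernoulliWeight a (fun i => (x i).1) *
        Crest.FinProb.bernoulliWeight b (fun i => (x i).2) := by
      unfold Crest.FinProb.bernoulliWeight
      rw [← Finset.prod_mul_distrib]
    rw [hprod]
    rfl
  rw [h1]
  have h2 : ∀ ω : ι → Bool,
      ∑ x : ι → Bool × Bool with (fun i => (x i).1 || (x i).2) = ω, ∏ i, g (x i)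
        = Crest.FinProb.bernoulliWeight (a + b - a * b) ω := by
    intro ω
    have hset : (Finset.univ.filter (fun x : ι → Bool × Bool =>
          (fun i => (x i).1 || (x i).2) = ω))
        = Fintype.piFinset (fun i => Finset.univ.filter
            (fun y : Bool × Bool => (y.1 || y.2) = ω i)) := by
      ext x
      simp [funext_iff]
    rw [hset, ← Finset.prod_univ_sum]
    unfold Crest.FinProb.bernoulliWeight
    apply Finset.prod_congr rfl
    intro i _
    cases h : ω i <;> simp [Finset.sum_filter, Fintype.sum_prod_type, hg] <;> ring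
  rw [← Finset.sum_fiberwise (s := Finset.univ)
    (g := fun x : ι → Bool × Bool => fun i => (x i).1 || (x i).2)]
  apply Finset.sum_congr rfl
  intro ω _
  rw [← h2 ω, Finset.sum_mul]
  apply Finset.sum_congr rfl
  intro x hx
  simp only [Finset.mem_filter, Finset.mem_univ, true_and] at hx
  rw [hx]

lemma sum_tset (x : ℝ) (f : Finset ι → ℝ) :
    ∑ ω : ι → Bool, Crest.FinProb.bernoulliWeight x ω * f (tset ω)
      = ∑ W : Finset ι, wt x W * f W := by
  rw [← (setEquiv (ι := ι)).sum_comp]
  apply Finset.sum_congr rfl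
  intro ω _
  rw [bw_eq_wt]
  rfl

/-- Union identity: the union of independent Bernoulli sets of densities `a` and `b` is a
Bernoulli set of density `a + b - a * b`. -/
lemma wt_union (a b : ℝ) (f : Finset ι → ℝ) :
    ∑ W : Finset ι, ∑ W' : Finset ι, wt a W * wt b W' * f (W ∪ W')
      = ∑ Z : Finset ι, wt (a + b - a * b) Z * f Z := by
  rw [← sum_tset, ← bw_union]
  rw [← (setEquiv (ι := ι)).sum_comp]
  apply Finset.sum_congr rfl
  intro ω₁ _
  rw [← (setEquiv (ι := ι)).sum_comp]
  apply Finset.sum_congr rfl
  intro ω₂ _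
  rw [bw_eq_wt, bw_eq_wt, tset_or]
  rfl

/-- Monotonicity in the density for increasing functions. -/
lemma wt_mono {a c : ℝ} (ha0 : 0 ≤ a) (hac : a ≤ c) (hc1 : c ≤ 1) (f : Finset ι → ℝ)
    (hf : ∀ W W' : Finset ι, W ⊆ W' → f W ≤ f W') :
    ∑ W : Finset ι, wt a W * f W ≤ ∑ W : Finset ι, wt c W * f W := by
  rcases eq_or_lt_of_le (le_trans hac hc1) with h1 | h1
  · have hca : c = a := by linarith
    rw [hca]
  · set b := (c - a) / (1 - a) with hb
    have hb0 : 0 ≤ b := div_nonneg (by linarith) (by linarith)
    have hb1 : b ≤ 1 := by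
      rw [hb, div_le_one (by linarith)]
      linarith
    have hc : c = a + b - a * b := by
      rw [hb]
      have : (1 - a) ≠ 0 := by linarith
      field_simp
      ring
    rw [hc, ← wt_union]
    have h2 : ∑ W : Finset ι, wt a W * f W
        = ∑ W : Finset ι, ∑ W' : Finset ι, wt a W * wt b W' * f W := by
      apply Finset.sum_congr rfl
      intro W _
      rw [← Finset.sum_mul, ← Finset.mul_sum, sum_wt, mul_one]
    rw [h2]
    apply Finset.sum_le_sum
    intro W _
    apply Finset.sum_le_sum
    intro W' _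
    apply mul_le_mul_of_nonneg_left (hf _ _ Finset.subset_union_left)
    exact mul_nonneg (wt_nonneg ha0 (by linarith) W) (wt_nonneg hb0 hb1 W')

/-- Link with the Prelude's `bernoulliProb`. -/
lemma bernoulliProb_eq (p : ℝ) (P : Finset ι → Prop) [DecidablePred P] :
    Crest.FinProb.bernoulliProb p {ω : ι → Bool | P (tset ω)}
      = ∑ W : Finset ι, wt p W * (if P W then 1 else 0) := by
  unfold Crest.FinProb.bernoulliProb
  rw [← sum_tset, Finset.sum_filter]
  apply Finset.sum_congr rfl
  intro ω _
  simp only [Set.mem_ofPred_eq]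
  split_ifs <;> simp

end Crest.Agent.Helper52.PP
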