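import Crest.Agent.Helper52.PP.Main
import Crest.Prelude.Def_RandomGraph

/-!
# Park–Pham, part 4: the binomial random graph

Glue between the abstract theorem `park_pham_spread` and the Prelude's `gnpProb` /
`SimpleGraph.IsContained`: if the uniform measure on the embeddings `W ↪ Fin n` of `H` is spread
(scale by scale), then `G(n, p')` contains a copy of `H` with probability at least `1/2`.

`s0076_of_spread` is the resulting *conditional* statement in the shape of statement S0076: it
assumes the spread bound with the constant `32 e^50` (a "spread lemma" that is NOT proved here).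
-/

set_option autoImplicit false
set_option linter.unusedSectionVars false

namespace Crest.Agent.Helper52.PP

open Finset Crest.CombinatoricsR.RandomGraph

variable {n : ℕ} {W : Type} [Fintype W] [DecidableEq W]

/-- The edge slots occupied by the copy of `H` along the embedding `f`. -/
noncomputable def slots (H : SimpleGraph W) [DecidableRel H.Adj] (f : W ↪ Fin n) :
    Finset (EdgeSlot n) :=
  (H.edgeFinset.image (Sym2.map f)).subtype (fun z => ¬ z.IsDiag)

lemma slots_card_le (H : SimpleGraph W) [DecidableRel H.Adj] (f : W ↪ Fin n) :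
    (slots H f).card ≤ H.edgeFinset.card := by
  unfold slots
  rw [Finset.card_subtype]
  exact (Finset.card_le_card (Finset.filter_subset _ _)).trans Finset.card_image_le

lemma isContained_of_slots (H : SimpleGraph W) [DecidableRel H.Adj] (ω : EdgeSlot n → Bool)
    (f : W ↪ Fin n) (h : ∀ s ∈ slots H f, ω s = true) : H.IsContained (graphOf ω) := by
  refine ⟨⟨⟨f, ?_⟩, f.injective⟩⟩
  intro a b hab
  have hne : f a ≠ f b := fun he => hab.ne (f.injective he)
  have hnd : ¬ (s(f a, f b) : Sym2 (Fin n)).IsDiag := by
    rw [Sym2.mk_isDiag_iff]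
    exact hne
  have hmem : (⟨s(f a, f b), hnd⟩ : EdgeSlot n) ∈ slots H f := by
    unfold slots
    rw [Finset.mem_subtype, Finset.mem_image]
    exact ⟨s(a, b), by rw [SimpleGraph.mem_edgeFinset]; exact hab, rfl⟩
  have htrue := h _ hmem
  unfold graphOf
  rw [SimpleGraph.fromEdgeSet_adj]
  exact ⟨⟨hnd, htrue⟩, hne⟩

lemma bernoulliProb_mono {ι : Type*} [Fintype ι] [DecidableEq ι] {p : ℝ} (h0 : 0 ≤ p)
    (h1 : p ≤ 1) {E F : Set (ι → Bool)} (hEF : E ⊆ F) :
    Crest.FinProb.bernoulliProb p E ≤ Crest.FinProb.bernoulliProb p F := by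
  classical
  unfold Crest.FinProb.bernoulliProb
  apply Finset.sum_le_sum_of_subset_of_nonneg
  · intro ω hω
    rw [Finset.mem_filter] at hω ⊢
    exact ⟨hω.1, hEF hω.2⟩
  · intro ω _ _
    unfold Crest.FinProb.bernoulliWeight
    apply Finset.prod_nonneg
    intro i _
    split_ifs <;> linarith

/-- **Spread ⇒ containment.**  Let `k = ⌊log₂ e(H)⌋ + 1`.  Suppose that for every scale `j < k`
and every set `T` of edge slots with `2^j ≤ |T| < 2^(j+1)`, at most a `(y j)^|T|` fraction of the
embeddings `f : W ↪ Fin n` have `T` inside the copy `f(H)`, where `64 * y j ≤ 1`.  Then the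
binomial random graph at edge probability `p' ≥ ∑ j < k, 64 * y j` contains a copy of `H` with
probability at least `1/2`. -/
theorem gnp_of_spread (n : ℕ) (W : Type) [Fintype W] [DecidableEq W] (H : SimpleGraph W)
    [DecidableRel H.Adj] (hW : Fintype.card W ≤ n) (y : ℕ → ℝ)
    (hy : ∀ j, j < Nat.log 2 H.edgeFinset.card + 1 → 0 ≤ y j ∧ 64 * y j ≤ 1)
    (hs : ∀ (j : ℕ) (T : Finset (EdgeSlot n)), j < Nat.log 2 H.edgeFinset.card + 1 →
      2 ^ j ≤ T.card → T.card < 2 ^ (j + 1) →
      (((Finset.univ.filter (fun f : W ↪ Fin n => T ⊆ slots H f)).card : ℕ) : ℝ)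
        ≤ (y j) ^ T.card * (Fintype.card (W ↪ Fin n) : ℝ))
    (p' : ℝ) (hp' : ∑ j ∈ Finset.range (Nat.log 2 H.edgeFinset.card + 1), 64 * y j ≤ p')
    (hp'1 : p' ≤ 1) :
    (1 : ℝ) / 2 ≤ gnpProb n p' {G | H.IsContained G} := by
  classical
  have hne : Nonempty (W ↪ Fin n) :=
    Function.Embedding.nonempty_of_card_le (by simpa using hW)
  set k := Nat.log 2 H.edgeFinset.card + 1 with hk
  have hcard : ∀ f : W ↪ Fin n, (slots H f).card < 2 ^ k := fun f =>
    lt_of_le_of_lt (slots_card_le H f) (Nat.lt_pow_succ_log_self (by norm_num) _)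
  set x : ℕ → ℝ := fun j => if j < k then 64 * y j else 0 with hx
  have hx01 : ∀ j, 0 ≤ x j ∧ x j ≤ 1 := by
    intro j
    simp only [hx]
    split_ifs with hj
    · exact ⟨by linarith [(hy j hj).1], (hy j hj).2⟩
    · exact ⟨le_refl _, zero_le_one⟩
  have hsum : ∑ j ∈ Finset.range k, x j = ∑ j ∈ Finset.range k, 64 * y j := by
    apply Finset.sum_congr rfl
    intro j hj
    simp only [hx]
    rw [if_pos (Finset.mem_range.mp hj)]
  have hp'0 : 0 ≤ p' := by
    refine le_trans ?_ hp'
    apply Finset.sum_nonneg
    intro j hj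
    linarith [(hy j (Finset.mem_range.mp hj)).1]
  have key := park_pham_spread (ι := EdgeSlot n) (Ω := W ↪ Fin n) (slots H) k hcard x hx01
    (by
      intro j T h1 h2
      by_cases hj : j < k
      · have hxj : x j / 64 = y j := by
          simp only [hx]
          rw [if_pos hj]
          ring
        rw [hxj]
        exact hs j T hj h1 h2
      · have hempty : Finset.univ.filter (fun f : W ↪ Fin n => T ⊆ slots H f) = ∅ := by
          apply Finset.filter_eq_empty_iff.mpr
          intro f _ hT
          have hc1 := Finset.card_le_card hT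
          have hc2 := hcard f
          have hc3 : 2 ^ k ≤ 2 ^ j := Nat.pow_le_pow_right (by norm_num) (not_lt.mp hj)
          omega
        rw [hempty]
        have hxj : x j / 64 = 0 := by
          simp only [hx]
          rw [if_neg hj]
          ring
        rw [hxj]
        simp only [Finset.card_empty, Nat.cast_zero]
        exact mul_nonneg (pow_nonneg (le_refl _) _) (Nat.cast_nonneg _))
    p' (by rw [hsum]; exact hp') hp'1
  refine le_trans key ?_
  unfold gnpProb
  apply bernoulliProb_mono hp'0 hp'1
  rintro ω ⟨f, hf⟩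
  exact isContained_of_slots H ω f hf

/-- At edge probability `1` the random graph is the complete graph. -/
lemma gnpProb_one (n : ℕ) (E : Set (SimpleGraph (Fin n)))
    (hE : graphOf (fun _ : EdgeSlot n => true) ∈ E) : gnpProb n 1 E = 1 := by
  classical
  unfold gnpProb Crest.FinProb.bernoulliProb
  rw [Finset.sum_eq_single (fun _ : EdgeSlot n => true)]
  · simp [Crest.FinProb.bernoulliWeight]
  · intro ω _ hne
    unfold Crest.FinProb.bernoulliWeight
    have hex : ∃ i, ω i = false := by
      by_contra hcon
      apply hne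
      funext i
      by_contra hi
      exact hcon ⟨i, by simpa using hi⟩
    obtain ⟨i, hi⟩ := hex
    apply Finset.prod_eq_zero (Finset.mem_univ i)
    simp [hi]
  · intro hnot
    exfalso
    apply hnot
    rw [Finset.mem_filter]
    exact ⟨Finset.mem_univ _, hE⟩

/-- **Conditional form of statement S0076** (the "spread lemma" is an assumption here, it is NOT
proved): if for every nonempty set `T` of edge slots at most a `(32 e^50 p)^|T|` fraction of the
embeddings `f : W ↪ Fin n` have `T` inside the copy `f(H)`, then the binomial random graph at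
edge probability `min 1 (2048 e^50 p (1 + log₂ e(H)))` contains a copy of `H` with probability at
least `1/2`. -/
theorem s0076_of_spread (n : ℕ) (W : Type) [Fintype W] [DecidableEq W] (H : SimpleGraph W)
    [DecidableRel H.Adj] (hW : Fintype.card W ≤ n) (p : ℝ) (hp0 : 0 ≤ p)
    (hSL : ∀ T : Finset (EdgeSlot n), T.Nonempty →
      (((Finset.univ.filter (fun f : W ↪ Fin n => T ⊆ slots H f)).card : ℕ) : ℝ)
        ≤ (32 * Real.exp 50 * p) ^ T.card * (Fintype.card (W ↪ Fin n) : ℝ)) :
    (1 : ℝ) / 2 ≤ gnpProb n
      (min 1 (2048 * Real.exp 50 * p * (1 + Real.logb 2 (H.edgeFinset.card : ℝ))))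
      {G | H.IsContained G} := by
  have hlog : (Nat.log 2 H.edgeFinset.card : ℝ) ≤ Real.logb 2 (H.edgeFinset.card : ℝ) := by
    have := Real.natLog_le_logb H.edgeFinset.card 2
    simpa using this
  have hlog0 : (0 : ℝ) ≤ (Nat.log 2 H.edgeFinset.card : ℝ) := Nat.cast_nonneg _
  have he : (0 : ℝ) < Real.exp 50 := Real.exp_pos 50
  have h0 : 0 ≤ 2048 * Real.exp 50 * p := by positivity
  set K := 2048 * Real.exp 50 * p * (1 + Real.logb 2 (H.edgeFinset.card : ℝ)) with hK
  by_cases hK1 : 1 ≤ K
  · rw [min_eq_left hK1]
    have hne : Nonempty (W ↪ Fin n) :=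
      Function.Embedding.nonempty_of_card_le (by simpa using hW)
    obtain ⟨f⟩ := hne
    rw [gnpProb_one n _ (isContained_of_slots H _ f (fun _ _ => rfl))]
    norm_num
  · have hK1' : K < 1 := lt_of_not_ge hK1
    rw [min_eq_right hK1'.le]
    have hy1 : 64 * (32 * Real.exp 50 * p) ≤ 1 := by
      have hle : 64 * (32 * Real.exp 50 * p) ≤ K := by
        rw [hK]
        nlinarith
      linarith
    apply gnp_of_spread n W H hW (fun _ => 32 * Real.exp 50 * p)
      (fun j _ => ⟨by positivity, hy1⟩) _ K _ hK1'.le
    · intro j T _ h1 _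
      apply hSL T
      rw [← Finset.card_pos]
      exact lt_of_lt_of_le (by positivity) h1
    · rw [Finset.sum_const, Finset.card_range, nsmul_eq_mul, hK]
      push_cast
      nlinarith

end Crest.Agent.Helper52.PP
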