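import Crest.Agent.Helper52.PP.Round

/-!
# Park–Pham, part 3: the iteration

`core` is the induction over the rounds (scales `2^j ≤ |T| < 2^(j+1)`), with a scale-dependent
cost function `φ`.  `park_pham_cost` is the resulting statement for Bernoulli sets, and
`park_pham` / `park_pham_spread` are the two usual forms (no cheap cover / spread family).
-/

set_option autoImplicit false
set_option linter.unusedSectionVars false

namespace Crest.Agent.Helper52.PP

open Finset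

variable {ι : Type*} [Fintype ι] [DecidableEq ι]

/-- `W` contains no member of `𝓗`. -/
def Fails (𝓗 : Finset (Finset ι)) (W : Finset ι) : Prop := ∀ S ∈ 𝓗, ¬ S ⊆ W

/-- `𝒢` covers `𝓗`: every member of `𝓗` contains a member of `𝒢`. -/
def Covers (𝒢 𝓗 : Finset (Finset ι)) : Prop := ∀ S ∈ 𝓗, ∃ T ∈ 𝒢, T ⊆ S

noncomputable instance failsDec (𝓗 : Finset (Finset ι)) : DecidablePred (Fails 𝓗) :=
  Classical.decPred _

/-- The probability that a Bernoulli set of density `p` contains no member of `𝓗`. -/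
noncomputable def pfail (p : ℝ) (𝓗 : Finset (Finset ι)) : ℝ :=
  ∑ W : Finset ι, wt p W * (if Fails 𝓗 W then 1 else 0)

lemma pfail_nonneg {p : ℝ} (h0 : 0 ≤ p) (h1 : p ≤ 1) (𝓗 : Finset (Finset ι)) :
    0 ≤ pfail p 𝓗 := by
  unfold pfail
  apply Finset.sum_nonneg
  intro W _
  apply mul_nonneg (wt_nonneg h0 h1 W)
  split_ifs <;> norm_num

lemma pfail_le_one {p : ℝ} (h0 : 0 ≤ p) (h1 : p ≤ 1) (𝓗 : Finset (Finset ι)) :
    pfail p 𝓗 ≤ 1 := by
  unfold pfail
  calc ∑ W : Finset ι, wt p W * (if Fails 𝓗 W then 1 else 0)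
      ≤ ∑ W : Finset ι, wt p W * 1 := by
        apply Finset.sum_le_sum
        intro W _
        apply mul_le_mul_of_nonneg_left _ (wt_nonneg h0 h1 W)
        split_ifs <;> norm_num
    _ = 1 := by simp only [mul_one]; exact sum_wt p

/-- The density of the union of the first `k` rounds. -/
noncomputable def dens (x : ℕ → ℝ) : ℕ → ℝ
  | 0 => 0
  | k + 1 => x k + dens x k - x k * dens x k

lemma dens_mem (x : ℕ → ℝ) (hx : ∀ j, 0 ≤ x j ∧ x j ≤ 1) :
    ∀ k, 0 ≤ dens x k ∧ dens x k ≤ 1 := by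
  intro k
  induction k with
  | zero => simp [dens]
  | succ k ih =>
    have h := hx k
    simp only [dens]
    constructor
    · nlinarith [mul_nonneg (sub_nonneg.mpr h.2) ih.1, h.1]
    · nlinarith [mul_nonneg (sub_nonneg.mpr h.2) (sub_nonneg.mpr ih.2)]

lemma dens_le_sum (x : ℕ → ℝ) (hx : ∀ j, 0 ≤ x j ∧ x j ≤ 1) :
    ∀ k, dens x k ≤ ∑ j ∈ Finset.range k, x j := by
  intro k
  induction k with
  | zero => simp [dens]
  | succ k ih =>
    have h := hx k
    have hd := dens_mem x hx k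
    rw [Finset.sum_range_succ]
    simp only [dens]
    nlinarith [mul_nonneg h.1 hd.1]

/-- The error budget of the first `k` rounds. -/
noncomputable def eps : ℕ → ℝ
  | 0 => 0
  | k + 1 => eps k + 2 ^ (2 ^ (k + 1) - 1) / 64 ^ (2 ^ k)

lemma eps_le : ∀ k, eps k ≤ (1 / 30) * (1 - (1 / 16) ^ k) := by
  intro k
  induction k with
  | zero => simp [eps]
  | succ k ih =>
    simp only [eps]
    have h1 : (2 : ℝ) ^ (2 ^ (k + 1) - 1) / 64 ^ (2 ^ k) = (1 / 2) * (1 / 16) ^ (2 ^ k) := by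
      have hpos : 1 ≤ 2 ^ (k + 1) := Nat.one_le_two_pow
      have e1 : (2 : ℝ) ^ (2 ^ (k + 1) - 1) * 2 = 4 ^ (2 ^ k) := by
        rw [← pow_succ, Nat.sub_add_cancel hpos, pow_succ 2 k, mul_comm (2 ^ k) 2, pow_mul]
        norm_num
      have e2 : (64 : ℝ) ^ (2 ^ k) = 4 ^ (2 ^ k) * 16 ^ (2 ^ k) := by
        rw [← mul_pow]
        norm_num
      have e3 : (2 : ℝ) ^ (2 ^ (k + 1) - 1) = 4 ^ (2 ^ k) / 2 := by
        rw [← e1]
        ring
      rw [e3, e2, one_div_pow]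
      have h4 : (0 : ℝ) < 4 ^ (2 ^ k) := by positivity
      have h16 : (0 : ℝ) < 16 ^ (2 ^ k) := by positivity
      field_simp
    have h2 : (1 / 16 : ℝ) ^ (2 ^ k) ≤ (1 / 16) ^ (k + 1) := by
      apply pow_le_pow_of_le_one (by norm_num) (by norm_num)
      exact Nat.lt_two_pow_self
    rw [h1]
    have h3 : (1 / 16 : ℝ) ^ (k + 1) = (1 / 16) ^ k * (1 / 16) := pow_succ _ _
    have h5 : (0 : ℝ) ≤ (1 / 16) ^ k := by positivity
    nlinarith

lemma eps_le' (k : ℕ) : eps k ≤ 1 / 30 := by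
  have h := eps_le k
  have h5 : (0 : ℝ) ≤ (1 / 16) ^ k := by positivity
  nlinarith

/-- The induction over the rounds. -/
theorem core (φ : Finset ι → ℝ) (hφ0 : ∀ T, 0 ≤ φ T) (x : ℕ → ℝ)
    (hx : ∀ j, 0 ≤ x j ∧ x j ≤ 1)
    (hφ : ∀ (j : ℕ) (T : Finset ι), 2 ^ j ≤ T.card → T.card < 2 ^ (j + 1) →
      φ T ≤ (x j / 64) ^ T.card) :
    ∀ (k : ℕ) (𝓗 : Finset (Finset ι)), (∀ S ∈ 𝓗, S.card < 2 ^ k) → ∀ c : ℝ, 0 ≤ c →
      (∀ 𝒢 : Finset (Finset ι), Covers 𝒢 𝓗 → c ≤ ∑ T ∈ 𝒢, φ T) →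
      c * pfail (dens x k) 𝓗 ≤ eps k := by
  classical
  intro k
  induction k with
  | zero =>
    intro 𝓗 hk c hc hcov
    simp only [dens, eps]
    rcases 𝓗.eq_empty_or_nonempty with h | ⟨S, hS⟩
    · have h0 := hcov ∅ (by
        intro S hS
        rw [h] at hS
        simp at hS)
      simp only [Finset.sum_empty] at h0
      have hc0 : c = 0 := le_antisymm h0 hc
      rw [hc0, zero_mul]
    · have hSe : S = ∅ := by
        have := hk S hS
        simpa using this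
      have hpf : pfail 0 𝓗 = 0 := by
        unfold pfail
        apply Finset.sum_eq_zero
        intro W _
        have hnf : ¬ Fails 𝓗 W := fun hf => hf S hS (by rw [hSe]; exact Finset.empty_subset _)
        rw [if_neg hnf, mul_zero]
      rw [hpf, mul_zero]
  | succ k ih =>
    intro 𝓗 hk c hc hcov
    have hxk := hx k
    have hd := dens_mem x hx k
    set m := 2 ^ k with hm
    -- union identity
    have hb : pfail (dens x (k + 1)) 𝓗
        ≤ ∑ W : Finset ι, wt (x k) W * pfail (dens x k) (good 𝓗 m W) := by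
      have hde : dens x (k + 1) = x k + dens x k - x k * dens x k := rfl
      unfold pfail
      rw [hde, ← wt_union]
      apply Finset.sum_le_sum
      intro W _
      rw [Finset.mul_sum]
      apply Finset.sum_le_sum
      intro W' _
      rw [mul_assoc]
      apply mul_le_mul_of_nonneg_left _ (wt_nonneg hxk.1 hxk.2 W)
      apply mul_le_mul_of_nonneg_left _ (wt_nonneg hd.1 hd.2 W')
      by_cases hf : Fails 𝓗 (W ∪ W')
      · have hf' : Fails (good 𝓗 m W) W' := by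
          intro T hT hTW'
          obtain ⟨⟨S, hS, rfl⟩, -⟩ := mem_good.mp hT
          obtain ⟨S'', hS'', hsub⟩ := frag_exists 𝓗 W S hS
          exact hf S'' hS'' (hsub.trans (Finset.union_subset_union_right hTW'))
        rw [if_pos hf, if_pos hf']
      · rw [if_neg hf]
        split_ifs <;> norm_num
    -- bound for a fixed first round
    have hcW : ∀ W : Finset ι, c * pfail (dens x k) (good 𝓗 m W)
        ≤ eps k + ∑ T ∈ bad 𝓗 m W, (x k / 64) ^ T.card := by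
      intro W
      set cost := ∑ T ∈ bad 𝓗 m W, φ T with hcost
      have hcost0 : 0 ≤ cost := Finset.sum_nonneg (fun T _ => hφ0 T)
      have hcostle : cost ≤ ∑ T ∈ bad 𝓗 m W, (x k / 64) ^ T.card := by
        apply Finset.sum_le_sum
        intro T hT
        obtain ⟨⟨S, hS, rfl⟩, hmT⟩ := mem_bad.mp hT
        apply hφ k _ hmT
        exact lt_of_le_of_lt (Finset.card_le_card (frag_subset 𝓗 W S hS)) (hk S hS)
      have hgood : ∀ T ∈ good 𝓗 m W, T.card < 2 ^ k := fun T hT => (mem_good.mp hT).2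
      have hc' : ∀ 𝒢 : Finset (Finset ι), Covers 𝒢 (good 𝓗 m W) →
          max 0 (c - cost) ≤ ∑ T ∈ 𝒢, φ T := by
        intro 𝒢 h𝒢
        apply max_le (Finset.sum_nonneg (fun T _ => hφ0 T))
        have hcov' : Covers (𝒢 ∪ bad 𝓗 m W) 𝓗 := by
          intro S hS
          by_cases hsz : m ≤ (frag 𝓗 W S).card
          · exact ⟨frag 𝓗 W S, Finset.mem_union_right _ (mem_bad.mpr ⟨⟨S, hS, rfl⟩, hsz⟩),
              frag_subset 𝓗 W S hS⟩
          · obtain ⟨T, hT, hTs⟩ :=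
              h𝒢 (frag 𝓗 W S) (mem_good.mpr ⟨⟨S, hS, rfl⟩, not_le.mp hsz⟩)
            exact ⟨T, Finset.mem_union_left _ hT, hTs.trans (frag_subset 𝓗 W S hS)⟩
        have h1 := hcov _ hcov'
        have h2 : ∑ T ∈ 𝒢 ∪ bad 𝓗 m W, φ T ≤ ∑ T ∈ 𝒢, φ T + cost := by
          have h3 := Finset.sum_union_inter (s₁ := 𝒢) (s₂ := bad 𝓗 m W) (f := φ)
          have hnn : 0 ≤ ∑ T ∈ 𝒢 ∩ bad 𝓗 m W, φ T := Finset.sum_nonneg (fun T _ => hφ0 T)
          linarith
        linarith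
      have hih := ih (good 𝓗 m W) hgood (max 0 (c - cost)) (le_max_left _ _) hc'
      have hpf0 := pfail_nonneg hd.1 hd.2 (good 𝓗 m W)
      have hpf1 := pfail_le_one hd.1 hd.2 (good 𝓗 m W)
      have hle : c ≤ max 0 (c - cost) + cost := by
        have := le_max_right 0 (c - cost)
        linarith
      calc c * pfail (dens x k) (good 𝓗 m W)
          ≤ (max 0 (c - cost) + cost) * pfail (dens x k) (good 𝓗 m W) :=
            mul_le_mul_of_nonneg_right hle hpf0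
        _ = max 0 (c - cost) * pfail (dens x k) (good 𝓗 m W)
              + cost * pfail (dens x k) (good 𝓗 m W) := by ring
        _ ≤ eps k + cost * 1 := add_le_add hih (mul_le_mul_of_nonneg_left hpf1 hcost0)
        _ ≤ eps k + ∑ T ∈ bad 𝓗 m W, (x k / 64) ^ T.card := by
            rw [mul_one]
            linarith
    -- combine
    have hℓ : ∀ S ∈ 𝓗, S.card ≤ 2 ^ (k + 1) - 1 := fun S hS => Nat.le_sub_one_of_lt (hk S hS)
    have hround := round_cost 𝓗 (2 ^ (k + 1) - 1) m hℓ (x k) hxk.1 hxk.2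
    calc c * pfail (dens x (k + 1)) 𝓗
        ≤ c * ∑ W : Finset ι, wt (x k) W * pfail (dens x k) (good 𝓗 m W) :=
          mul_le_mul_of_nonneg_left hb hc
      _ = ∑ W : Finset ι, wt (x k) W * (c * pfail (dens x k) (good 𝓗 m W)) := by
          rw [Finset.mul_sum]
          apply Finset.sum_congr rfl
          intro W _
          ring
      _ ≤ ∑ W : Finset ι, wt (x k) W * (eps k + ∑ T ∈ bad 𝓗 m W, (x k / 64) ^ T.card) :=
          Finset.sum_le_sum (fun W _ =>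
            mul_le_mul_of_nonneg_left (hcW W) (wt_nonneg hxk.1 hxk.2 W))
      _ = eps k + ∑ W : Finset ι, wt (x k) W * ∑ T ∈ bad 𝓗 m W, (x k / 64) ^ T.card := by
          simp only [mul_add]
          rw [Finset.sum_add_distrib, ← Finset.sum_mul, sum_wt, one_mul]
      _ ≤ eps k + 2 ^ (2 ^ (k + 1) - 1) / 64 ^ m := by linarith
      _ = eps (k + 1) := rfl

/-- Failure probability bound at any density `p ≥ ∑ j < k, x j`. -/
theorem pfail_le (𝓗 : Finset (Finset ι)) (k : ℕ) (hk : ∀ S ∈ 𝓗, S.card < 2 ^ k)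
    (φ : Finset ι → ℝ) (hφ0 : ∀ T, 0 ≤ φ T) (x : ℕ → ℝ) (hx : ∀ j, 0 ≤ x j ∧ x j ≤ 1)
    (hφ : ∀ (j : ℕ) (T : Finset ι), 2 ^ j ≤ T.card → T.card < 2 ^ (j + 1) →
      φ T ≤ (x j / 64) ^ T.card)
    (c : ℝ) (hc : 0 < c)
    (hcov : ∀ 𝒢 : Finset (Finset ι), Covers 𝒢 𝓗 → c ≤ ∑ T ∈ 𝒢, φ T)
    (p : ℝ) (hp : ∑ j ∈ Finset.range k, x j ≤ p) (hp1 : p ≤ 1) :
    pfail p 𝓗 ≤ 1 / (30 * c) := by
  have h1 := core φ hφ0 x hx hφ k 𝓗 hk c hc.le hcov
  have h2 := eps_le' k
  have hd := dens_mem x hx k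
  have hds := dens_le_sum x hx k
  have hmono : pfail p 𝓗 ≤ pfail (dens x k) 𝓗 := by
    have key := wt_mono hd.1 (hds.trans hp) hp1
      (fun W => if Fails 𝓗 W then (0 : ℝ) else 1) (by
        intro W W' hWW'
        by_cases hf : Fails 𝓗 W'
        · have hfW : Fails 𝓗 W := fun S hS hsub => hf S hS (hsub.trans hWW')
          simp only [if_pos hf, if_pos hfW, le_refl]
        · simp only [if_neg hf]
          split_ifs <;> norm_num)
    have e : ∀ q : ℝ, pfail q 𝓗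
        = 1 - ∑ W : Finset ι, wt q W * (if Fails 𝓗 W then (0 : ℝ) else 1) := by
      intro q
      have hsum := sum_wt (ι := ι) q
      have hadd : ∑ W : Finset ι, wt q W * (if Fails 𝓗 W then (1 : ℝ) else 0)
          + ∑ W : Finset ι, wt q W * (if Fails 𝓗 W then (0 : ℝ) else 1) = 1 := by
        rw [← Finset.sum_add_distrib]
        refine Eq.trans ?_ hsum
        apply Finset.sum_congr rfl
        intro W _
        split_ifs <;> ring
      unfold pfail
      linarith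
    rw [e p, e (dens x k)]
    linarith
  have h3 : c * pfail p 𝓗 ≤ 1 / 30 :=
    calc c * pfail p 𝓗 ≤ c * pfail (dens x k) 𝓗 := mul_le_mul_of_nonneg_left hmono hc.le
      _ ≤ eps k := h1
      _ ≤ 1 / 30 := h2
  rw [le_div_iff₀ (by positivity)]
  linarith

/-- **Park–Pham with a scale-dependent cost.**  Let `𝓗` be a family of sets of size `< 2^k` and
`φ ≥ 0` a cost with `φ T ≤ (x j / 64)^|T|` for `2^j ≤ |T| < 2^(j+1)`.  If every cover of `𝓗` has
`φ`-cost at least `1/2`, then a Bernoulli set of density `p ≥ ∑ j < k, x j` contains a member of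
`𝓗` with probability at least `1/2` (indeed `14/15`). -/
theorem park_pham_cost (𝓗 : Finset (Finset ι)) (k : ℕ) (hk : ∀ S ∈ 𝓗, S.card < 2 ^ k)
    (φ : Finset ι → ℝ) (hφ0 : ∀ T, 0 ≤ φ T) (x : ℕ → ℝ) (hx : ∀ j, 0 ≤ x j ∧ x j ≤ 1)
    (hφ : ∀ (j : ℕ) (T : Finset ι), 2 ^ j ≤ T.card → T.card < 2 ^ (j + 1) →
      φ T ≤ (x j / 64) ^ T.card)
    (hcov : ∀ 𝒢 : Finset (Finset ι), (∀ S ∈ 𝓗, ∃ T ∈ 𝒢, T ⊆ S) → 1 / 2 ≤ ∑ T ∈ 𝒢, φ T)
    (p : ℝ) (hp : ∑ j ∈ Finset.range k, x j ≤ p) (hp1 : p ≤ 1) :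
    (1 : ℝ) / 2 ≤ Crest.FinProb.bernoulliProb p
      {ω : ι → Bool | ∃ S ∈ 𝓗, ∀ i ∈ S, ω i = true} := by
  have h := pfail_le 𝓗 k hk φ hφ0 x hx hφ (1 / 2) (by norm_num) hcov p hp hp1
  have hset : {ω : ι → Bool | ∃ S ∈ 𝓗, ∀ i ∈ S, ω i = true}
      = {ω : ι → Bool | ¬ Fails 𝓗 (tset ω)} := by
    ext ω
    simp only [Set.mem_ofPred_eq, Fails]
    constructor
    · rintro ⟨S, hS, h⟩ hf
      exact hf S hS (fun i hi => (mem_tset ω i).mpr (h i hi))
    · intro hnf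
      by_contra hne
      apply hnf
      intro S hS hsub
      exact hne ⟨S, hS, fun i hi => (mem_tset ω i).mp (hsub hi)⟩
  rw [hset, bernoulliProb_eq p (fun W => ¬ Fails 𝓗 W)]
  have e : ∑ W : Finset ι, wt p W * (if ¬ Fails 𝓗 W then (1 : ℝ) else 0) = 1 - pfail p 𝓗 := by
    have hsum := sum_wt (ι := ι) p
    have hadd : ∑ W : Finset ι, wt p W * (if ¬ Fails 𝓗 W then (1 : ℝ) else 0)
        + ∑ W : Finset ι, wt p W * (if Fails 𝓗 W then (1 : ℝ) else 0) = 1 := by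
      rw [← Finset.sum_add_distrib]
      refine Eq.trans ?_ hsum
      apply Finset.sum_congr rfl
      intro W _
      by_cases hf : Fails 𝓗 W
      · simp [hf]
      · simp [hf]
    unfold pfail
    linarith
  rw [e]
  norm_num at h
  linarith

/-- **Park–Pham** (uniform form): if no cover of the `ℓ`-bounded family `𝓗` has cost
`∑ q^|T| < 1/2`, then a Bernoulli set of density `p ≥ 64 q (⌊log₂ ℓ⌋ + 1)` contains a member of
`𝓗` with probability at least `1/2`. -/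
theorem park_pham (𝓗 : Finset (Finset ι)) (ℓ : ℕ) (hℓ : ∀ S ∈ 𝓗, S.card ≤ ℓ) (q : ℝ)
    (hq : 0 ≤ q)
    (hns : ∀ 𝒢 : Finset (Finset ι), (∀ S ∈ 𝓗, ∃ T ∈ 𝒢, T ⊆ S) →
      1 / 2 ≤ ∑ T ∈ 𝒢, q ^ T.card)
    (p : ℝ) (hp : 64 * q * (Nat.log 2 ℓ + 1) ≤ p) (hp1 : p ≤ 1) :
    (1 : ℝ) / 2 ≤ Crest.FinProb.bernoulliProb p
      {ω : ι → Bool | ∃ S ∈ 𝓗, ∀ i ∈ S, ω i = true} := by
  have hlog : (0 : ℝ) ≤ (Nat.log 2 ℓ : ℝ) := Nat.cast_nonneg _
  have h64 : 64 * q ≤ 1 := by nlinarith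
  apply park_pham_cost 𝓗 (Nat.log 2 ℓ + 1)
    (fun S hS => lt_of_le_of_lt (hℓ S hS) (Nat.lt_pow_succ_log_self (by norm_num) ℓ))
    (fun T => q ^ T.card) (fun T => pow_nonneg hq _) (fun _ => 64 * q)
    (fun _ => ⟨by positivity, h64⟩) _ hns p _ hp1
  · intro j T _ _
    have : 64 * q / 64 = q := by ring
    rw [this]
  · rw [Finset.sum_const, Finset.card_range, nsmul_eq_mul]
    push_cast
    linarith

/-- **Park–Pham, spread form with scale-dependent rates.**  Let `e f` (`f : Ω`) be a finite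
family of sets of size `< 2^k` such that for every `T` with `2^j ≤ |T| < 2^(j+1)` at most an
`(x j / 64)^|T|` fraction of the `f` have `T ⊆ e f`.  Then a Bernoulli set of density
`p ≥ ∑ j < k, x j` contains some `e f` with probability at least `1/2`. -/
theorem park_pham_spread {Ω : Type*} [Fintype Ω] [Nonempty Ω] (e : Ω → Finset ι) (k : ℕ)
    (hk : ∀ f, (e f).card < 2 ^ k) (x : ℕ → ℝ) (hx : ∀ j, 0 ≤ x j ∧ x j ≤ 1)
    (hs : ∀ (j : ℕ) (T : Finset ι), 2 ^ j ≤ T.card → T.card < 2 ^ (j + 1) →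
      (((Finset.univ.filter (fun f : Ω => T ⊆ e f)).card : ℕ) : ℝ)
        ≤ (x j / 64) ^ T.card * (Fintype.card Ω : ℝ))
    (p : ℝ) (hp : ∑ j ∈ Finset.range k, x j ≤ p) (hp1 : p ≤ 1) :
    (1 : ℝ) / 2 ≤ Crest.FinProb.bernoulliProb p
      {ω : ι → Bool | ∃ f : Ω, ∀ i ∈ e f, ω i = true} := by
  classical
  have hΩ : (0 : ℝ) < (Fintype.card Ω : ℝ) := by
    exact_mod_cast Fintype.card_pos
  set 𝓗 : Finset (Finset ι) := Finset.univ.image e with h𝓗
  set φ : Finset ι → ℝ := fun T =>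
    (((Finset.univ.filter (fun f : Ω => T ⊆ e f)).card : ℕ) : ℝ) / (Fintype.card Ω : ℝ) with hφdef
  have hset : {ω : ι → Bool | ∃ f : Ω, ∀ i ∈ e f, ω i = true}
      = {ω : ι → Bool | ∃ S ∈ 𝓗, ∀ i ∈ S, ω i = true} := by
    ext ω
    simp [h𝓗]
  rw [hset]
  apply park_pham_cost 𝓗 k _ φ _ x hx _ _ p hp hp1
  · intro S hS
    obtain ⟨f, -, rfl⟩ := Finset.mem_image.mp hS
    exact hk f
  · intro T
    exact div_nonneg (Nat.cast_nonneg _) hΩ.le
  · intro j T h1 h2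
    rw [hφdef]
    simp only
    rw [div_le_iff₀ hΩ]
    exact hs j T h1 h2
  · intro 𝒢 h𝒢
    have hone : (1 : ℝ) ≤ ∑ T ∈ 𝒢, φ T := by
      have hsum : (Fintype.card Ω : ℝ)
          ≤ ∑ T ∈ 𝒢, (((Finset.univ.filter (fun f : Ω => T ⊆ e f)).card : ℕ) : ℝ) := by
        have h1 : ∀ f : Ω, (1 : ℝ) ≤ ∑ T ∈ 𝒢, (if T ⊆ e f then (1 : ℝ) else 0) := by
          intro f
          obtain ⟨T, hT, hTs⟩ := h𝒢 (e f) (Finset.mem_image.mpr ⟨f, Finset.mem_univ _, rfl⟩)
          calc (1 : ℝ) = (if T ⊆ e f then (1 : ℝ) else 0) := by rw [if_pos hTs]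
            _ ≤ ∑ T ∈ 𝒢, (if T ⊆ e f then (1 : ℝ) else 0) :=
              Finset.single_le_sum (f := fun T => if T ⊆ e f then (1 : ℝ) else 0)
                (fun T _ => by split_ifs <;> norm_num) hT
        calc (Fintype.card Ω : ℝ) = ∑ _f : Ω, (1 : ℝ) := by simp
          _ ≤ ∑ f : Ω, ∑ T ∈ 𝒢, (if T ⊆ e f then (1 : ℝ) else 0) :=
            Finset.sum_le_sum (fun f _ => h1 f)
          _ = ∑ T ∈ 𝒢, ∑ f : Ω, (if T ⊆ e f then (1 : ℝ) else 0) := Finset.sum_comm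
          _ = ∑ T ∈ 𝒢, (((Finset.univ.filter (fun f : Ω => T ⊆ e f)).card : ℕ) : ℝ) := by
            apply Finset.sum_congr rfl
            intro T _
            rw [Finset.sum_boole]
      rw [hφdef]
      simp only
      rw [← Finset.sum_div, le_div_iff₀ hΩ, one_mul]
      exact hsum
    linarith

end Crest.Agent.Helper52.PP
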