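import Crest.Agent.Helper52.PP.Basic

/-!
# Park–Pham, part 2: minimum fragments and the one-round cost bound

For a hypergraph `𝓗` (a finite family of finite sets), a set `W` and a member `S`, the *minimum
fragment* `frag 𝓗 W S` is `S' \ W` for a member `S' ⊆ W ∪ S` minimising `|S' \ W|`.  The key
property is that every member `S''` of `𝓗` inside `W ∪ frag 𝓗 W S` contains the fragment.  It gives
the injection `(W, T) ↦ (W ∪ T, T)` with `T` inside a canonical member of `𝓗` determined by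
`W ∪ T`, and hence the cost bound `round_cost` for the family of large fragments.
-/

set_option autoImplicit false
set_option linter.unusedSectionVars false

namespace Crest.Agent.Helper52.PP

open Finset

variable {ι : Type*} [Fintype ι] [DecidableEq ι]

/-- Minimum fragment of `S` with respect to `W`. -/
noncomputable def frag (𝓗 : Finset (Finset ι)) (W S : Finset ι) : Finset ι :=
  if h : (𝓗.filter (fun S' => S' ⊆ W ∪ S)).Nonempty then
    (Classical.choose (Finset.exists_min_image _ (fun S' : Finset ι => (S' \ W).card) h)) \ W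
  else ∅

lemma frag_spec (𝓗 : Finset (Finset ι)) (W S : Finset ι) (hS : S ∈ 𝓗) :
    ∃ S' ∈ 𝓗, S' ⊆ W ∪ S ∧ frag 𝓗 W S = S' \ W ∧
      ∀ S'' ∈ 𝓗, S'' ⊆ W ∪ S → (S' \ W).card ≤ (S'' \ W).card := by
  have h : (𝓗.filter (fun S' => S' ⊆ W ∪ S)).Nonempty :=
    ⟨S, Finset.mem_filter.mpr ⟨hS, Finset.subset_union_right⟩⟩
  have hspec := Classical.choose_spec
    (Finset.exists_min_image _ (fun S' : Finset ι => (S' \ W).card) h)
  refine ⟨Classical.choose (Finset.exists_min_image _ (fun S' : Finset ι => (S' \ W).card) h),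
    (Finset.mem_filter.mp hspec.1).1, (Finset.mem_filter.mp hspec.1).2, ?_, ?_⟩
  · unfold frag
    rw [dif_pos h]
  · intro S'' hS'' hsub
    exact hspec.2 S'' (Finset.mem_filter.mpr ⟨hS'', hsub⟩)

lemma frag_subset (𝓗 : Finset (Finset ι)) (W S : Finset ι) (hS : S ∈ 𝓗) :
    frag 𝓗 W S ⊆ S := by
  obtain ⟨S', _, hsub, hfr, _⟩ := frag_spec 𝓗 W S hS
  rw [hfr]
  intro i hi
  rw [Finset.mem_sdiff] at hi
  have := hsub hi.1
  rw [Finset.mem_union] at this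
  rcases this with h | h
  · exact absurd h hi.2
  · exact h

lemma frag_disjoint (𝓗 : Finset (Finset ι)) (W S : Finset ι) (hS : S ∈ 𝓗) :
    Disjoint W (frag 𝓗 W S) := by
  obtain ⟨S', _, _, hfr, _⟩ := frag_spec 𝓗 W S hS
  rw [hfr]
  exact Finset.disjoint_sdiff

/-- Some member of `𝓗` lies inside `W ∪ frag 𝓗 W S`. -/
lemma frag_exists (𝓗 : Finset (Finset ι)) (W S : Finset ι) (hS : S ∈ 𝓗) :
    ∃ S'' ∈ 𝓗, S'' ⊆ W ∪ frag 𝓗 W S := by
  obtain ⟨S', hS', _, hfr, _⟩ := frag_spec 𝓗 W S hS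
  refine ⟨S', hS', ?_⟩
  rw [hfr]
  intro i hi
  by_cases hiW : i ∈ W
  · exact Finset.mem_union_left _ hiW
  · exact Finset.mem_union_right _ (Finset.mem_sdiff.mpr ⟨hi, hiW⟩)

/-- The minimum-fragment property. -/
lemma frag_min (𝓗 : Finset (Finset ι)) (W S : Finset ι) (hS : S ∈ 𝓗)
    (S'' : Finset ι) (hS'' : S'' ∈ 𝓗) (hsub : S'' ⊆ W ∪ frag 𝓗 W S) :
    frag 𝓗 W S ⊆ S'' := by
  have hfS := frag_subset 𝓗 W S hS
  obtain ⟨S', _, _, hfr, hmin⟩ := frag_spec 𝓗 W S hS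
  have h1 : S'' ⊆ W ∪ S := hsub.trans (Finset.union_subset_union_right hfS)
  have h2 : (frag 𝓗 W S).card ≤ (S'' \ W).card := by
    rw [hfr]
    exact hmin S'' hS'' h1
  have h3 : S'' \ W ⊆ frag 𝓗 W S := by
    intro i hi
    rw [Finset.mem_sdiff] at hi
    have := hsub hi.1
    rw [Finset.mem_union] at this
    rcases this with h | h
    · exact absurd h hi.2
    · exact h
  have h4 : S'' \ W = frag 𝓗 W S := Finset.eq_of_subset_of_card_le h3 h2
  rw [← h4]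
  exact Finset.sdiff_subset

/-- A canonical member of `𝓗` inside `Z` (if there is one). -/
noncomputable def canon (𝓗 : Finset (Finset ι)) (Z : Finset ι) : Finset ι :=
  if h : ∃ S ∈ 𝓗, S ⊆ Z then Classical.choose h else ∅

lemma canon_spec (𝓗 : Finset (Finset ι)) (Z : Finset ι) (h : ∃ S ∈ 𝓗, S ⊆ Z) :
    canon 𝓗 Z ∈ 𝓗 ∧ canon 𝓗 Z ⊆ Z := by
  unfold canon
  rw [dif_pos h]
  exact Classical.choose_spec h

lemma canon_card_le (𝓗 : Finset (Finset ι)) (ℓ : ℕ) (hℓ : ∀ S ∈ 𝓗, S.card ≤ ℓ)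
    (Z : Finset ι) : (canon 𝓗 Z).card ≤ ℓ := by
  by_cases h : ∃ S ∈ 𝓗, S ⊆ Z
  · exact hℓ _ (canon_spec 𝓗 Z h).1
  · unfold canon
    rw [dif_neg h]
    simp

lemma frag_subset_canon (𝓗 : Finset (Finset ι)) (W S : Finset ι) (hS : S ∈ 𝓗) :
    frag 𝓗 W S ⊆ canon 𝓗 (W ∪ frag 𝓗 W S) := by
  have h := canon_spec 𝓗 (W ∪ frag 𝓗 W S) (frag_exists 𝓗 W S hS)
  exact frag_min 𝓗 W S hS _ h.1 h.2

/-- The fragments of size at least `m`. -/
noncomputable def bad (𝓗 : Finset (Finset ι)) (m : ℕ) (W : Finset ι) : Finset (Finset ι) :=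
  (𝓗.image (frag 𝓗 W)).filter (fun T => m ≤ T.card)

/-- The fragments of size less than `m`. -/
noncomputable def good (𝓗 : Finset (Finset ι)) (m : ℕ) (W : Finset ι) : Finset (Finset ι) :=
  (𝓗.image (frag 𝓗 W)).filter (fun T => T.card < m)

lemma mem_bad {𝓗 : Finset (Finset ι)} {m : ℕ} {W T : Finset ι} :
    T ∈ bad 𝓗 m W ↔ (∃ S ∈ 𝓗, frag 𝓗 W S = T) ∧ m ≤ T.card := by
  simp [bad]

lemma mem_good {𝓗 : Finset (Finset ι)} {m : ℕ} {W T : Finset ι} :
    T ∈ good 𝓗 m W ↔ (∃ S ∈ 𝓗, frag 𝓗 W S = T) ∧ T.card < m := by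
  simp [good]

/-- One round: the expected cost of the large fragments. -/
theorem round_cost (𝓗 : Finset (Finset ι)) (ℓ m : ℕ) (hℓ : ∀ S ∈ 𝓗, S.card ≤ ℓ)
    (x : ℝ) (hx0 : 0 ≤ x) (hx1 : x ≤ 1) :
    ∑ W : Finset ι, wt x W * ∑ T ∈ bad 𝓗 m W, (x / 64) ^ T.card ≤ 2 ^ ℓ / 64 ^ m := by
  classical
  -- step 1: pointwise weight shift
  have h1 : ∀ W : Finset ι, wt x W * ∑ T ∈ bad 𝓗 m W, (x / 64) ^ T.card
      ≤ ∑ T ∈ bad 𝓗 m W, wt x (W ∪ T) / 64 ^ m := by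
    intro W
    rw [Finset.mul_sum]
    apply Finset.sum_le_sum
    intro T hT
    obtain ⟨⟨S, hS, rfl⟩, hm⟩ := mem_bad.mp hT
    have hd := frag_disjoint 𝓗 W S hS
    have hshift := wt_mul_pow_of_disjoint x hd
    have hwnn : 0 ≤ wt x (W ∪ frag 𝓗 W S) := wt_nonneg hx0 hx1 _
    have h64 : (64 : ℝ) ^ m ≤ 64 ^ (frag 𝓗 W S).card :=
      pow_le_pow_right₀ (by norm_num) hm
    have hpow : (1 - x) ^ (frag 𝓗 W S).card ≤ 1 := pow_le_one₀ (by linarith) (by linarith)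
    calc wt x W * (x / 64) ^ (frag 𝓗 W S).card
        = (wt x W * x ^ (frag 𝓗 W S).card) / 64 ^ (frag 𝓗 W S).card := by
          rw [div_pow]; ring
      _ = wt x (W ∪ frag 𝓗 W S) * (1 - x) ^ (frag 𝓗 W S).card / 64 ^ (frag 𝓗 W S).card := by
          rw [hshift]
      _ ≤ wt x (W ∪ frag 𝓗 W S) * 1 / 64 ^ m := by
          apply div_le_div₀ (by positivity) _ (by positivity) h64
          exact mul_le_mul_of_nonneg_left hpow hwnn
      _ = wt x (W ∪ frag 𝓗 W S) / 64 ^ m := by rw [mul_one]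
  -- step 2: the injection (W, T) ↦ (W ∪ T, T)
  have h2 : ∑ W : Finset ι, ∑ T ∈ bad 𝓗 m W, wt x (W ∪ T) / 64 ^ m
      ≤ ∑ Z : Finset ι, ∑ T ∈ (canon 𝓗 Z).powerset, wt x Z / 64 ^ m := by
    rw [Finset.sum_sigma', Finset.sum_sigma']
    set Φ : (Σ _ : Finset ι, Finset ι) → (Σ _ : Finset ι, Finset ι) :=
      fun a => ⟨a.1 ∪ a.2, a.2⟩ with hΦ
    have hinj : Set.InjOn Φ ↑(Finset.univ.sigma (fun W : Finset ι => bad 𝓗 m W)) := by
      rintro ⟨W, T⟩ ha ⟨W', T'⟩ hb heq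
      simp only [Finset.coe_sigma, Finset.coe_univ, Set.mem_sigma_iff, Set.mem_univ,
        Finset.mem_coe, true_and] at ha hb
      obtain ⟨⟨S, hS, rfl⟩, -⟩ := mem_bad.mp ha
      obtain ⟨⟨S', hS', rfl⟩, -⟩ := mem_bad.mp hb
      simp only [hΦ, Sigma.mk.injEq, heq_eq_eq] at heq
      obtain ⟨hZ, hT⟩ := heq
      have hd := frag_disjoint 𝓗 W S hS
      have hd' := frag_disjoint 𝓗 W' S' hS'
      have hW : W = W' := by
        have e1 : W = (W ∪ frag 𝓗 W S) \ frag 𝓗 W S := by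
          rw [Finset.union_sdiff_right]
          exact (Finset.sdiff_eq_self_of_disjoint hd).symm
        have e2 : W' = (W' ∪ frag 𝓗 W' S') \ frag 𝓗 W' S' := by
          rw [Finset.union_sdiff_right]
          exact (Finset.sdiff_eq_self_of_disjoint hd').symm
        rw [e1, e2, hZ, hT]
      subst hW
      simp [hT]
    have himg : (Finset.univ.sigma (fun W : Finset ι => bad 𝓗 m W)).image Φ
        ⊆ Finset.univ.sigma (fun Z : Finset ι => (canon 𝓗 Z).powerset) := by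
      intro b hb
      obtain ⟨⟨W, T⟩, ha, rfl⟩ := Finset.mem_image.mp hb
      simp only [Finset.mem_sigma, Finset.mem_univ, true_and] at ha
      obtain ⟨⟨S, hS, rfl⟩, -⟩ := mem_bad.mp ha
      simp only [hΦ, Finset.mem_sigma, Finset.mem_univ, true_and, Finset.mem_powerset]
      exact frag_subset_canon 𝓗 W S hS
    calc ∑ a ∈ Finset.univ.sigma (fun W : Finset ι => bad 𝓗 m W), wt x (a.1 ∪ a.2) / 64 ^ m
        = ∑ a ∈ Finset.univ.sigma (fun W : Finset ι => bad 𝓗 m W), wt x (Φ a).1 / 64 ^ m := rfl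
      _ = ∑ b ∈ (Finset.univ.sigma (fun W : Finset ι => bad 𝓗 m W)).image Φ,
            wt x b.1 / 64 ^ m :=
          (Finset.sum_image (f := fun b : (Σ _ : Finset ι, Finset ι) => wt x b.1 / 64 ^ m)
            hinj).symm
      _ ≤ ∑ b ∈ Finset.univ.sigma (fun Z : Finset ι => (canon 𝓗 Z).powerset),
            wt x b.1 / 64 ^ m := by
          apply Finset.sum_le_sum_of_subset_of_nonneg himg
          intro b _ _
          exact div_nonneg (wt_nonneg hx0 hx1 _) (by positivity)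
  -- step 3: count the subsets of the canonical member
  have h3 : ∑ Z : Finset ι, ∑ T ∈ (canon 𝓗 Z).powerset, wt x Z / 64 ^ m
      ≤ ∑ Z : Finset ι, wt x Z * (2 ^ ℓ / 64 ^ m) := by
    apply Finset.sum_le_sum
    intro Z _
    rw [Finset.sum_const, Finset.card_powerset, nsmul_eq_mul]
    have hc := canon_card_le 𝓗 ℓ hℓ Z
    have hwnn : 0 ≤ wt x Z := wt_nonneg hx0 hx1 _
    have h2pow : ((2 ^ (canon 𝓗 Z).card : ℕ) : ℝ) ≤ 2 ^ ℓ := by
      push_cast
      exact pow_le_pow_right₀ (by norm_num) hc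
    calc ((2 ^ (canon 𝓗 Z).card : ℕ) : ℝ) * (wt x Z / 64 ^ m)
        ≤ 2 ^ ℓ * (wt x Z / 64 ^ m) :=
          mul_le_mul_of_nonneg_right h2pow (div_nonneg hwnn (by positivity))
      _ = wt x Z * (2 ^ ℓ / 64 ^ m) := by ring
  calc ∑ W : Finset ι, wt x W * ∑ T ∈ bad 𝓗 m W, (x / 64) ^ T.card
      ≤ ∑ W : Finset ι, ∑ T ∈ bad 𝓗 m W, wt x (W ∪ T) / 64 ^ m :=
        Finset.sum_le_sum (fun W _ => h1 W)
    _ ≤ ∑ Z : Finset ι, ∑ T ∈ (canon 𝓗 Z).powerset, wt x Z / 64 ^ m := h2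
    _ ≤ ∑ Z : Finset ι, wt x Z * (2 ^ ℓ / 64 ^ m) := h3
    _ = 2 ^ ℓ / 64 ^ m := by rw [← Finset.sum_mul, sum_wt, one_mul]

end Crest.Agent.Helper52.PP
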